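import Vale.Agent.P245.H792.Comb

/-!
# Symmetrised form of the combinatorial bound (15), and the weights of `F = β arctan (·/β)`
-/

namespace Vale.Agent.P245.H792

open MeasureTheory Set Filter Topology

/-- `P_s(x) = x² / (s² + x²)`. -/
noncomputable def Ps (s x : ℝ) : ℝ := x ^ 2 / (s ^ 2 + x ^ 2)

/-- The divided difference of `P_s`. -/
noncomputable def Pd (s x y : ℝ) : ℝ := s ^ 2 * (x + y) / ((s ^ 2 + x ^ 2) * (s ^ 2 + y ^ 2))

/-- `Ω(z; x, y)`: the derivative index has eigenvalue `z`, the matrix indices `x`, `y`. -/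
noncomputable def om (b z x y : ℝ) : ℝ :=
  ∫ s in (0 : ℝ)..b, (1 - Ps s z) ^ 2 * Pd s x y ^ 2 * (4 * s)

theorem Pd_comm (s x y : ℝ) : Pd s x y = Pd s y x := by
  unfold Pd
  rw [add_comm, mul_comm (s ^ 2 + x ^ 2)]

theorem om_comm (b z x y : ℝ) : om b z x y = om b z y x := by
  unfold om
  simp only [Pd_comm _ x y]

theorem Pd_eq {s x y : ℝ} (hs : s ≠ 0) (hxy : x ≠ y) :
    Pd s x y = (Ps s x - Ps s y) / (x - y) := by
  have h : x - y ≠ 0 := sub_ne_zero.2 hxy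
  have h1 : s ^ 2 + x ^ 2 ≠ 0 := by positivity
  have h2 : s ^ 2 + y ^ 2 ≠ 0 := by positivity
  unfold Pd Ps
  field_simp
  ring

theorem Ps_nonneg (s x : ℝ) : 0 ≤ Ps s x := by unfold Ps; positivity

theorem Ps_le_one (s x : ℝ) : Ps s x ≤ 1 := by
  unfold Ps
  apply div_le_one_of_le₀
  · nlinarith [sq_nonneg s]
  · positivity

theorem integrand_eq {s : ℝ} (hs : 0 < s) (z x y : ℝ) :
    (1 - Ps s z) ^ 2 * Pd s x y ^ 2 * (4 * s) =
      2 * (x + y) ^ 2 * (jj (z ^ 2) (x ^ 2) (y ^ 2) (s ^ 2) * (2 * s)) := by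
  have h1 : s ^ 2 + x ^ 2 ≠ 0 := by positivity
  have h2 : s ^ 2 + y ^ 2 ≠ 0 := by positivity
  have h3 : s ^ 2 + z ^ 2 ≠ 0 := by positivity
  unfold Pd Ps jj
  field_simp
  ring

theorem jj_perm (A B C v : ℝ) : jj A B C v = jj B C A v := by
  unfold jj; congr 1; ring

/-- bounded when at least one of the three constants is positive -/
theorem exists_bound {A B C : ℝ} (hA : 0 ≤ A) (hB : 0 ≤ B) (hC : 0 ≤ C) (h : 0 < A + B + C) :
    ∃ K, ∀ v, 0 ≤ v → jj A B C v ≤ K := by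
  rcases hA.eq_or_lt with hA' | hA'
  · rcases hB.eq_or_lt with hB' | hB'
    · have hC' : 0 < C := by rw [← hA', ← hB'] at h; linarith
      exact ⟨1 / C ^ 2, fun v hv => by rw [jj_perm, jj_perm]; exact jj_le hC' hA hB hv⟩
    · exact ⟨1 / B ^ 2, fun v hv => by rw [jj_perm]; exact jj_le hB' hC hA hv⟩
  · exact ⟨1 / A ^ 2, fun v hv => jj_le hA' hB hC hv⟩

theorem continuousAt_jj {A B C v : ℝ} (hA : 0 ≤ A) (hB : 0 ≤ B) (hC : 0 ≤ C) (hv : 0 < v) :
    ContinuousAt (jj A B C) v := by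
  unfold jj
  apply ContinuousAt.div (by fun_prop) (by fun_prop)
  positivity

theorem subst_jj {A B C b : ℝ} (hA : 0 ≤ A) (hB : 0 ≤ B) (hC : 0 ≤ C) (h : 0 < A + B + C)
    (hb : 0 < b) :
    ∫ s in (0 : ℝ)..b, jj A B C (s ^ 2) * (2 * s) = ∫ v in (0 : ℝ)..(b ^ 2), jj A B C v := by
  obtain ⟨K, hK⟩ := exists_bound hA hB hC h
  have key := intervalIntegral.integral_comp_mul_deriv''' (a := 0) (b := b) (f := fun s : ℝ => s ^ 2)
    (f' := fun s => 2 * s) (g := jj A B C) (by fun_prop)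
    (fun s _ => by simpa using (hasDerivAt_pow 2 s).hasDerivWithinAt)
    (by
      rintro v ⟨s, hs, rfl⟩
      rw [min_eq_left hb.le, max_eq_right hb.le] at hs
      exact (continuousAt_jj hA hB hC (pow_pos hs.1 2)).continuousWithinAt)
    (by
      refine Measure.integrableOn_of_bounded (M := K) ?_ (measurable_jj A B C).aestronglyMeasurable ?_
      · have : (fun s : ℝ => s ^ 2) '' uIcc 0 b ⊆ Icc 0 (b ^ 2) := by
          rintro v ⟨s, hs, rfl⟩
          rw [uIcc_of_le hb.le] at hs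
          exact ⟨by positivity, pow_le_pow_left₀ hs.1 hs.2 2⟩
        refine ne_top_of_le_ne_top ?_ (measure_mono this)
        simp [Real.volume_Icc]
      · refine (ae_restrict_iff' ?_).2 (Eventually.of_forall fun v hv => ?_)
        · exact (isCompact_uIcc.image (by fun_prop)).measurableSet
        · obtain ⟨s, hs, rfl⟩ := hv
          rw [Real.norm_of_nonneg (jj_nonneg (sq_nonneg s))]
          exact hK _ (sq_nonneg s))
    (by
      refine Measure.integrableOn_of_bounded (M := K * (2 * b)) ?_ ?_ ?_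
      · rw [uIcc_of_le hb.le]; simp [Real.volume_Icc]
      · exact (((measurable_jj A B C).comp (by fun_prop : Measurable fun s : ℝ => s ^ 2)).mul
          (by fun_prop)).aestronglyMeasurable
      · refine (ae_restrict_iff' measurableSet_uIcc).2 (Eventually.of_forall fun s hs => ?_)
        rw [uIcc_of_le hb.le] at hs
        have h1 : 0 ≤ jj A B C (s ^ 2) := jj_nonneg (sq_nonneg s)
        have h2 := hK _ (sq_nonneg s)
        have h3 : 0 ≤ 2 * s := by linarith [hs.1]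
        simp only [Function.comp_apply]
        rw [Real.norm_of_nonneg (mul_nonneg h1 h3)]
        apply mul_le_mul h2 (by linarith [hs.2]) h3 (h1.trans h2))
  simpa using key

theorem om_eq {b : ℝ} (hb : 0 < b) (z x y : ℝ) :
    om b z x y = 2 * (x + y) ^ 2 * ∫ v in (0 : ℝ)..(b ^ 2), jj (z ^ 2) (x ^ 2) (y ^ 2) v := by
  have e : om b z x y =
      ∫ s in (0 : ℝ)..b, 2 * (x + y) ^ 2 * (jj (z ^ 2) (x ^ 2) (y ^ 2) (s ^ 2) * (2 * s)) := by
    unfold om
    refine intervalIntegral.integral_congr fun s hs => ?_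
    rw [uIcc_of_le hb.le] at hs
    rcases hs.1.eq_or_lt with h | h
    · rw [← h]; simp
    · exact integrand_eq h z x y
  rw [e, intervalIntegral.integral_const_mul]
  by_cases hxy : x + y = 0
  · rw [hxy]; simp
  · rw [subst_jj (by positivity) (by positivity) (by positivity) ?_ hb]
    by_contra hcon
    apply hxy
    have h1 : x = 0 := by nlinarith [sq_nonneg x, sq_nonneg y, sq_nonneg z]
    have h2 : y = 0 := by nlinarith [sq_nonneg x, sq_nonneg y, sq_nonneg z]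
    rw [h1, h2]; ring

theorem om_nonneg {b : ℝ} (hb : 0 < b) (z x y : ℝ) : 0 ≤ om b z x y := by
  unfold om
  apply intervalIntegral.integral_nonneg hb.le
  intro s hs
  have := hs.1
  positivity

/-- **Symmetrised scalar bound.** -/
theorem om_sum_le {b : ℝ} (hb : 0 < b) (x y z : ℝ) :
    om b x y z + om b y x z + om b z x y ≤
      26 / 5 * (b ^ 2 / (b ^ 2 + max (x ^ 2) (max (y ^ 2) (z ^ 2)))) := by
  rw [om_eq hb, om_eq hb, om_eq hb]
  have e1 : ∫ v in (0 : ℝ)..(b ^ 2), jj (y ^ 2) (x ^ 2) (z ^ 2) v =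
      ∫ v in (0 : ℝ)..(b ^ 2), jj (x ^ 2) (y ^ 2) (z ^ 2) v := by
    simp only [jj_swap1 (y ^ 2)]
  have e2 : ∫ v in (0 : ℝ)..(b ^ 2), jj (z ^ 2) (x ^ 2) (y ^ 2) v =
      ∫ v in (0 : ℝ)..(b ^ 2), jj (x ^ 2) (y ^ 2) (z ^ 2) v := by
    simp only [jj_perm (z ^ 2)]
  rw [e1, e2]
  have := scalar_bound x y z (b := b ^ 2) (by positivity)
  linarith

/-- **Item (15)**, finite-sum form: `T` fully symmetric, `w i j` any weights which dominate
`b² / (b² + max (x i)² (x j)²)`. -/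
theorem comb {ι : Type*} [Fintype ι] (T : ι → ι → ι → ℝ) (h1 : ∀ e i j, T e i j = T i e j)
    (h2 : ∀ e i j, T e i j = T e j i) (x : ι → ℝ) {b : ℝ} (hb : 0 < b) (w : ι → ι → ℝ)
    (hw : ∀ i j, b ^ 2 / (b ^ 2 + max (x i ^ 2) (x j ^ 2)) ≤ w i j) :
    ∑ e, ∑ i, ∑ j, om b (x e) (x i) (x j) * T e i j ^ 2 ≤
      26 / 15 * ∑ e, ∑ i, ∑ j, w i j * T e i j ^ 2 := by
  have s1 : ∑ e, ∑ i, ∑ j, om b (x i) (x e) (x j) * T e i j ^ 2 =
      ∑ e, ∑ i, ∑ j, om b (x e) (x i) (x j) * T e i j ^ 2 := by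
    rw [Finset.sum_comm]
    refine Finset.sum_congr rfl fun i _ => Finset.sum_congr rfl fun e _ =>
      Finset.sum_congr rfl fun j _ => ?_
    rw [h1 e i j]
  have s2 : ∑ e, ∑ i, ∑ j, om b (x j) (x e) (x i) * T e i j ^ 2 =
      ∑ e, ∑ i, ∑ j, om b (x e) (x i) (x j) * T e i j ^ 2 := by
    have a1 : ∑ e, ∑ i, ∑ j, om b (x j) (x e) (x i) * T e i j ^ 2 =
        ∑ e, ∑ j, ∑ i, om b (x j) (x e) (x i) * T e i j ^ 2 :=
      Finset.sum_congr rfl fun e _ => Finset.sum_comm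
    rw [a1, Finset.sum_comm]
    refine Finset.sum_congr rfl fun j _ => Finset.sum_congr rfl fun e _ =>
      Finset.sum_congr rfl fun i _ => ?_
    rw [h2 e i j, h1 e j i]
  have hpt : ∀ e i j, (om b (x e) (x i) (x j) + om b (x i) (x e) (x j) + om b (x j) (x e) (x i)) ≤
      26 / 5 * w i j := by
    intro e i j
    refine (om_sum_le hb (x e) (x i) (x j)).trans ?_
    refine mul_le_mul_of_nonneg_left (le_trans ?_ (hw i j)) (by norm_num)
    apply div_le_div_of_nonneg_left (by positivity)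
    · have : 0 ≤ max (x i ^ 2) (x j ^ 2) := le_max_of_le_left (sq_nonneg _)
      positivity
    · exact add_le_add le_rfl (le_max_right _ _)
  have tot : ∑ e, ∑ i, ∑ j, (om b (x e) (x i) (x j) + om b (x i) (x e) (x j) +
      om b (x j) (x e) (x i)) * T e i j ^ 2 ≤ ∑ e, ∑ i, ∑ j, (26 / 5 * w i j) * T e i j ^ 2 := by
    refine Finset.sum_le_sum fun e _ => Finset.sum_le_sum fun i _ => Finset.sum_le_sum fun j _ => ?_
    exact mul_le_mul_of_nonneg_right (hpt e i j) (sq_nonneg _)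
  have spl : ∑ e, ∑ i, ∑ j, (om b (x e) (x i) (x j) + om b (x i) (x e) (x j) +
      om b (x j) (x e) (x i)) * T e i j ^ 2 =
      3 * ∑ e, ∑ i, ∑ j, om b (x e) (x i) (x j) * T e i j ^ 2 := by
    simp only [add_mul, Finset.sum_add_distrib]
    rw [s1, s2]; ring
  have rhs : ∑ e, ∑ i, ∑ j, (26 / 5 * w i j) * T e i j ^ 2 =
      26 / 5 * ∑ e, ∑ i, ∑ j, w i j * T e i j ^ 2 := by
    simp only [Finset.mul_sum, mul_assoc]
  rw [spl, rhs] at tot
  linarith

/-- `∫_0^b P_s(x)² 4 s ds = 2 x² b² / (b² + x²)`. -/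
theorem int_Ps_sq {b : ℝ} (hb : 0 < b) (x : ℝ) :
    ∫ s in (0 : ℝ)..b, Ps s x ^ 2 * (4 * s) = 2 * x ^ 2 * (b ^ 2 / (b ^ 2 + x ^ 2)) := by
  by_cases hx : x = 0
  · subst hx; simp [Ps]
  have hx2 : 0 < x ^ 2 := by positivity
  have hd : ∀ s : ℝ, HasDerivAt (fun s : ℝ => -(2 * x ^ 4) / (s ^ 2 + x ^ 2))
      (Ps s x ^ 2 * (4 * s)) s := by
    intro s
    have hne : s ^ 2 + x ^ 2 ≠ 0 := by positivity
    have h1 : HasDerivAt (fun s : ℝ => s ^ 2 + x ^ 2) (2 * s) s := by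
      simpa using (hasDerivAt_pow 2 s).add_const (x ^ 2)
    have h2 := (hasDerivAt_const s (-(2 * x ^ 4))).div h1 hne
    refine h2.congr_deriv ?_
    unfold Ps
    field_simp
    ring
  rw [intervalIntegral.integral_eq_sub_of_hasDerivAt (fun s _ => hd s)]
  · field_simp
    ring
  · apply Continuous.intervalIntegrable
    unfold Ps
    apply Continuous.mul _ (by fun_prop)
    apply Continuous.pow
    apply Continuous.div (by fun_prop) (by fun_prop)
    intro s; positivity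

/-- The divided difference of `F(x) = β arctan (x/β)`. -/
noncomputable def Fd (β x y : ℝ) : ℝ :=
  if x = y then β ^ 2 / (β ^ 2 + x ^ 2) else
    (β * Real.arctan (x / β) - β * Real.arctan (y / β)) / (x - y)

theorem hasDerivAt_F {β : ℝ} (hβ : 0 < β) (x : ℝ) :
    HasDerivAt (fun x : ℝ => β * Real.arctan (x / β)) (β ^ 2 / (β ^ 2 + x ^ 2)) x := by
  have h1 : HasDerivAt (fun x : ℝ => x / β) (1 / β) x := (hasDerivAt_id x).div_const β
  have h2 := (h1.arctan).const_mul β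
  refine h2.congr_deriv ?_
  have : (1 : ℝ) + (x / β) ^ 2 ≠ 0 := by positivity
  field_simp

theorem Fd_eq_deriv {β : ℝ} (hβ : 0 < β) (x y : ℝ) :
    ∃ c, c ^ 2 ≤ max (x ^ 2) (y ^ 2) ∧ Fd β x y = β ^ 2 / (β ^ 2 + c ^ 2) := by
  have main : ∀ x y : ℝ, x < y → ∃ c, c ^ 2 ≤ max (x ^ 2) (y ^ 2) ∧
      (β * Real.arctan (y / β) - β * Real.arctan (x / β)) / (y - x) = β ^ 2 / (β ^ 2 + c ^ 2) := by
    intro x y hxy
    obtain ⟨c, hc, hc2⟩ := exists_hasDerivAt_eq_slope (fun x : ℝ => β * Real.arctan (x / β))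
      (fun x => β ^ 2 / (β ^ 2 + x ^ 2)) hxy
      (fun z _ => (hasDerivAt_F hβ z).continuousAt.continuousWithinAt)
      (fun z _ => hasDerivAt_F hβ z)
    refine ⟨c, ?_, hc2.symm⟩
    rcases le_total 0 c with h | h
    · apply le_max_of_le_right
      have := hc.2
      gcongr
    · apply le_max_of_le_left
      have h3 : (-c) ^ 2 ≤ (-x) ^ 2 := by
        have := hc.1
        gcongr
        linarith
      simpa using h3
  unfold Fd
  split_ifs with h
  · exact ⟨x, le_max_left _ _, rfl⟩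
  · rcases lt_or_gt_of_ne h with h' | h'
    · obtain ⟨c, hc, hc2⟩ := main x y h'
      refine ⟨c, hc, ?_⟩
      rw [← hc2, ← neg_sub (β * Real.arctan (y / β)), ← neg_sub y x, neg_div_neg_eq]
    · obtain ⟨c, hc, hc2⟩ := main y x h'
      exact ⟨c, by rw [max_comm]; exact hc, hc2⟩

theorem le_Fd {β : ℝ} (hβ : 0 < β) (x y : ℝ) :
    β ^ 2 / (β ^ 2 + max (x ^ 2) (y ^ 2)) ≤ Fd β x y := by
  obtain ⟨c, hc, h⟩ := Fd_eq_deriv hβ x y
  rw [h]
  gcongr

theorem Fd_le_one {β : ℝ} (hβ : 0 < β) (x y : ℝ) : Fd β x y ≤ 1 := by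
  obtain ⟨c, hc, h⟩ := Fd_eq_deriv hβ x y
  rw [h]
  apply div_le_one_of_le₀
  · nlinarith [sq_nonneg c]
  · positivity

theorem Fd_pos {β : ℝ} (hβ : 0 < β) (x y : ℝ) : 0 < Fd β x y := by
  obtain ⟨c, hc, h⟩ := Fd_eq_deriv hβ x y
  rw [h]; positivity

theorem weight_le {b β : ℝ} (hb : 0 < b) (hbβ : b ≤ β) (x y : ℝ) :
    b ^ 2 / (b ^ 2 + max (x ^ 2) (y ^ 2)) ≤ Fd β x y := by
  refine le_trans ?_ (le_Fd (hb.trans_le hbβ) x y)
  have hm : 0 ≤ max (x ^ 2) (y ^ 2) := le_max_of_le_left (sq_nonneg _)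
  have hβ : 0 < β := hb.trans_le hbβ
  rw [div_le_div_iff₀ (by positivity) (by positivity)]
  have : b ^ 2 ≤ β ^ 2 := by gcongr
  nlinarith

/-- **Item (15)** with the weights of `F = β arctan (·/β)`, `b ≤ β`. -/
theorem comb_arctan {ι : Type*} [Fintype ι] (T : ι → ι → ι → ℝ)
    (h1 : ∀ e i j, T e i j = T i e j) (h2 : ∀ e i j, T e i j = T e j i) (x : ι → ℝ)
    {b β : ℝ} (hb : 0 < b) (hbβ : b ≤ β) :
    ∑ e, ∑ i, ∑ j, om b (x e) (x i) (x j) * T e i j ^ 2 ≤
      26 / 15 * ∑ e, ∑ i, ∑ j, Fd β (x i) (x j) * T e i j ^ 2 :=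
  comb T h1 h2 x hb _ fun i j => weight_le hb hbβ (x i) (x j)

end Vale.Agent.P245.H792
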