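import Vale.Agent.P245.H792.MCa

/-!
# Row MC: matrix calculus, the remaining pointwise items

Integrals over the scales `s ∈ (0, b]` of `|P_s(S)|²`, `|D P_s(S)|²`, `tr (N P_s(S)²)`,
and the bound for a 3-tensor which is only nearly symmetric.
-/

open Matrix Finset MeasureTheory

noncomputable section

namespace Vale.Agent.P245.H792

open Vale.Agent.P254.S130 Vale.Agent.P254.SP620

/-! ### scalar facts -/

theorem Ps_zero (s : ℝ) : Ps s 0 = 0 := by simp [Ps]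

theorem Ps_sq_le {s : ℝ} (hs : s ≠ 0) (x : ℝ) : Ps s x ^ 2 ≤ x ^ 2 / (4 * s ^ 2) := by
  have h0 : 0 < s ^ 2 := by positivity
  have h1 : 0 < s ^ 2 + x ^ 2 := by positivity
  unfold Ps
  rw [div_pow, div_le_div_iff₀ (by positivity) (by positivity)]
  have h2 : 0 ≤ x ^ 2 * (s ^ 2 - x ^ 2) ^ 2 := by positivity
  nlinarith [h2]

theorem Pd_sq_le {s : ℝ} (hs : s ≠ 0) (x y : ℝ) :
    Pd s x y ^ 2 ≤ 4 / (s ^ 2 + max (x ^ 2) (y ^ 2)) := by
  have h0 : 0 < s ^ 2 := by positivity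
  wlog h : y ^ 2 ≤ x ^ 2 generalizing x y
  · rw [Pd_comm, max_comm]
    exact this y x (not_le.1 h).le
  rw [max_eq_left h]
  have h1 : 0 < s ^ 2 + x ^ 2 := by positivity
  have h2 : 0 < s ^ 2 + y ^ 2 := by positivity
  unfold Pd
  rw [div_pow, div_le_div_iff₀ (by positivity) h1]
  have h3 : (x + y) ^ 2 ≤ 4 * x ^ 2 := by nlinarith [sq_nonneg (x - y)]
  have h4 : (s ^ 2) ^ 2 ≤ (s ^ 2 + y ^ 2) ^ 2 := by
    apply pow_le_pow_left₀ h0.le
    linarith [sq_nonneg y]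
  have h5 : x ^ 2 ≤ s ^ 2 + x ^ 2 := by linarith
  calc (s ^ 2 * (x + y)) ^ 2 * (s ^ 2 + x ^ 2)
      = (s ^ 2) ^ 2 * (x + y) ^ 2 * (s ^ 2 + x ^ 2) := by ring
    _ ≤ (s ^ 2 + y ^ 2) ^ 2 * (4 * x ^ 2) * (s ^ 2 + x ^ 2) := by
        apply mul_le_mul_of_nonneg_right _ h1.le
        exact mul_le_mul h4 h3 (sq_nonneg _) (sq_nonneg _)
    _ ≤ (s ^ 2 + y ^ 2) ^ 2 * (4 * (s ^ 2 + x ^ 2)) * (s ^ 2 + x ^ 2) := by
        apply mul_le_mul_of_nonneg_right _ h1.le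
        apply mul_le_mul_of_nonneg_left _ (by positivity)
        linarith
    _ = 4 * ((s ^ 2 + x ^ 2) * (s ^ 2 + y ^ 2)) ^ 2 := by ring

theorem Pd_sq_le_inv {s : ℝ} (hs : s ≠ 0) (x y : ℝ) : Pd s x y ^ 2 ≤ 1 / s ^ 2 := by
  have h0 : 0 < s ^ 2 := by positivity
  wlog h : y ^ 2 ≤ x ^ 2 generalizing x y
  · rw [Pd_comm]
    exact this y x (not_le.1 h).le
  have h1 : 0 < s ^ 2 + x ^ 2 := by positivity
  have h2 : 0 < s ^ 2 + y ^ 2 := by positivity
  unfold Pd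
  rw [div_pow, div_le_div_iff₀ (by positivity) h0]
  have h3 : (x + y) ^ 2 ≤ 4 * x ^ 2 := by nlinarith [sq_nonneg (x - y)]
  have h4 : (s ^ 2) ^ 2 ≤ (s ^ 2 + y ^ 2) ^ 2 := by
    apply pow_le_pow_left₀ h0.le
    linarith [sq_nonneg y]
  have h5 : 4 * x ^ 2 * s ^ 2 ≤ (s ^ 2 + x ^ 2) ^ 2 := by nlinarith [sq_nonneg (s ^ 2 - x ^ 2)]
  calc (s ^ 2 * (x + y)) ^ 2 * s ^ 2 = (s ^ 2) ^ 2 * ((x + y) ^ 2 * s ^ 2) := by ring
    _ ≤ (s ^ 2 + y ^ 2) ^ 2 * (4 * x ^ 2 * s ^ 2) := by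
        apply mul_le_mul h4 _ (by positivity) (by positivity)
        exact mul_le_mul_of_nonneg_right h3 h0.le
    _ ≤ (s ^ 2 + y ^ 2) ^ 2 * (s ^ 2 + x ^ 2) ^ 2 := mul_le_mul_of_nonneg_left h5 (by positivity)
    _ = 1 * ((s ^ 2 + x ^ 2) * (s ^ 2 + y ^ 2)) ^ 2 := by ring

theorem om_zero (b x y : ℝ) : om b 0 x y = ∫ s in (0 : ℝ)..b, Pd s x y ^ 2 * (4 * s) := by
  unfold om
  simp only [Ps_zero, sub_zero, one_pow, one_mul]

theorem om_le {b : ℝ} (hb : 0 < b) (z x y : ℝ) :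
    om b z x y ≤ 26 / 5 * (b ^ 2 / (b ^ 2 + max (x ^ 2) (y ^ 2))) := by
  have h := om_sum_le hb z x y
  have h1 := om_nonneg hb x z y
  have h2 := om_nonneg hb y z x
  have h3 : b ^ 2 / (b ^ 2 + max (z ^ 2) (max (x ^ 2) (y ^ 2))) ≤
      b ^ 2 / (b ^ 2 + max (x ^ 2) (y ^ 2)) := by
    apply div_le_div_of_nonneg_left (by positivity)
    · have : 0 ≤ max (x ^ 2) (y ^ 2) := le_max_of_le_left (sq_nonneg _)
      positivity
    · exact add_le_add le_rfl (le_max_right _ _)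
  nlinarith

theorem om_le_const {b : ℝ} (hb : 0 < b) (z x y : ℝ) : om b z x y ≤ 26 / 5 := by
  refine (om_le hb z x y).trans ?_
  have h0 : 0 ≤ max (x ^ 2) (y ^ 2) := le_max_of_le_left (sq_nonneg _)
  have : b ^ 2 / (b ^ 2 + max (x ^ 2) (y ^ 2)) ≤ 1 := by
    apply div_le_one_of_le₀
    · linarith
    · positivity
  linarith

theorem intervalIntegrable_Pd {b : ℝ} (hb : 0 < b) (x y : ℝ) :
    IntervalIntegrable (fun s => Pd s x y ^ 2 * (4 * s)) volume 0 b := by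
  have h := intervalIntegrable_om hb 0 x y
  simpa only [Ps_zero, sub_zero, one_pow, one_mul] using h

theorem continuous_Ps_scale {x : ℝ} (hx : x ≠ 0) : Continuous fun s : ℝ => Ps s x := by
  unfold Ps
  apply Continuous.div (by fun_prop) (by fun_prop)
  intro s
  positivity

theorem intervalIntegrable_Ps (b x : ℝ) :
    IntervalIntegrable (fun s => Ps s x ^ 2 * (4 * s)) volume 0 b := by
  by_cases hx : x = 0
  · subst hx
    simp [Ps_zero]
  · apply Continuous.intervalIntegrable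
    exact ((continuous_Ps_scale hx).pow 2).mul (by fun_prop)

variable {ι : Type*} [Fintype ι] [DecidableEq ι]

/-! ### `|P_s(S)|²` -/

theorem fr_mf {S U : Matrix ι ι ℝ} {m : ι → ℝ} (h : Dec S U m) (F : ℝ → ℝ) :
    fr (mf F S) = ∑ i, F (m i) ^ 2 := by
  have e : (mf F S)ᵀ * mf F S = mf (fun x => F x * F x) S := by
    rw [h.mf_symm, h.mf_mul]
  rw [fr_eq, e, h.mf_trace]
  exact Finset.sum_congr rfl fun i _ => (sq _).symm

theorem fr_dec {S U : Matrix ι ι ℝ} {m : ι → ℝ} (h : Dec S U m) : fr S = ∑ i, m i ^ 2 := by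
  have e := fr_mf h (fun x => x)
  rwa [h.mf_id] at e

theorem fr_mf_Ps_le {S U : Matrix ι ι ℝ} {m : ι → ℝ} (h : Dec S U m) {s : ℝ} (hs : s ≠ 0) :
    fr (mf (Ps s) S) ≤ fr S / (4 * s ^ 2) := by
  rw [fr_mf h, fr_dec h, Finset.sum_div]
  exact Finset.sum_le_sum fun i _ => Ps_sq_le hs _

/-- `∫_0^b |P_s(S)|² 4s ds = 2 tr (S² b² / (b² + S²))` -/
theorem int_fr_Ps {S U : Matrix ι ι ℝ} {m : ι → ℝ} (h : Dec S U m) {b : ℝ} (hb : 0 < b) :
    ∫ s in (0 : ℝ)..b, fr (mf (Ps s) S) * (4 * s) =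
      2 * (mf (fun x => x ^ 2 * (b ^ 2 / (b ^ 2 + x ^ 2))) S).trace := by
  rw [h.mf_trace, Finset.mul_sum]
  simp only [fr_mf h, Finset.sum_mul]
  rw [intervalIntegral.integral_finsetSum fun i _ => intervalIntegrable_Ps b (m i)]
  refine Finset.sum_congr rfl fun i _ => ?_
  rw [int_Ps_sq hb]
  ring

theorem trace_G {S U : Matrix ι ι ℝ} {m : ι → ℝ} (h : Dec S U m) {b : ℝ} (hb : 0 < b) :
    (mf (fun x => x ^ 2 * (b ^ 2 / (b ^ 2 + x ^ 2))) S).trace =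
      fr S - (mf (fun x => x ^ 2 * Ps b x) S).trace := by
  rw [h.mf_trace, h.mf_trace, fr_dec h, ← Finset.sum_sub_distrib]
  refine Finset.sum_congr rfl fun i _ => ?_
  have : b ^ 2 + m i ^ 2 ≠ 0 := by positivity
  unfold Ps
  field_simp
  ring

theorem trace_G_le {S U : Matrix ι ι ℝ} {m : ι → ℝ} (h : Dec S U m) {b : ℝ} (hb : 0 < b) :
    (mf (fun x => x ^ 2 * (b ^ 2 / (b ^ 2 + x ^ 2))) S).trace ≤ fr S := by
  rw [h.mf_trace, fr_dec h]
  refine Finset.sum_le_sum fun i _ => ?_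
  have h1 : b ^ 2 / (b ^ 2 + m i ^ 2) ≤ 1 := by
    apply div_le_one_of_le₀
    · linarith [sq_nonneg (m i)]
    · positivity
  nlinarith [sq_nonneg (m i)]

theorem trace_G_nonneg {S U : Matrix ι ι ℝ} {m : ι → ℝ} (h : Dec S U m) (b : ℝ) :
    0 ≤ (mf (fun x => x ^ 2 * (b ^ 2 / (b ^ 2 + x ^ 2))) S).trace := by
  rw [h.mf_trace]
  exact Finset.sum_nonneg fun i _ => by positivity

/-- `∫_0^b tr(|S| P_s(S)²) 4s ds ≤ b |S|²` -/
theorem int_abs_Ps {S U : Matrix ι ι ℝ} {m : ι → ℝ} (h : Dec S U m) {b : ℝ} (hb : 0 < b) :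
    ∫ s in (0 : ℝ)..b, (mf (fun x => |x| * Ps s x ^ 2) S).trace * (4 * s) ≤ b * fr S := by
  simp only [h.mf_trace, Finset.sum_mul, mul_assoc]
  rw [intervalIntegral.integral_finsetSum fun i _ =>
    (intervalIntegrable_Ps b (m i)).const_mul |m i|]
  rw [fr_dec h, Finset.mul_sum]
  refine Finset.sum_le_sum fun i _ => ?_
  rw [intervalIntegral.integral_const_mul, int_Ps_sq hb]
  have h1 : 0 < b ^ 2 + m i ^ 2 := by positivity
  have h2 : |m i| * (2 * m i ^ 2 * (b ^ 2 / (b ^ 2 + m i ^ 2))) =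
      m i ^ 2 * (2 * |m i| * b * b / (b ^ 2 + m i ^ 2)) := by
    ring
  have h3 : 2 * |m i| * b * b / (b ^ 2 + m i ^ 2) ≤ b := by
    rw [div_le_iff₀ h1]
    have h4 : 2 * |m i| * b ≤ b ^ 2 + m i ^ 2 := by
      have h5 := sq_nonneg (b - |m i|)
      have h6 := sq_abs (m i)
      nlinarith
    nlinarith
  rw [h2]
  nlinarith [sq_nonneg (m i)]

/-! ### `|D P_s(S)|²` -/

/-- The quantity `|D P_s(S)|²` in the frame `(U, m)`. -/
def wB (s : ℝ) (U : Matrix ι ι ℝ) (m : ι → ℝ) (T : ι → Matrix ι ι ℝ) : ℝ :=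
  ∑ e, fr (DK (Ps s) (Ps' s) U m (T e))

theorem wB_eq {S U : Matrix ι ι ℝ} {m : ι → ℝ} (h : Dec S U m) {s : ℝ} (hs : s ≠ 0)
    (T : ι → Matrix ι ι ℝ) :
    wB s U m T = ∑ e, ∑ i, ∑ j, Pd s (m i) (m j) ^ 2 * rot U T e i j ^ 2 := by
  unfold wB
  rw [sum_fr_DK h]
  refine Finset.sum_congr rfl fun e _ => Finset.sum_congr rfl fun i _ =>
    Finset.sum_congr rfl fun j _ => ?_
  rw [dd_Ps hs]

omit [DecidableEq ι] in
theorem wB_nonneg (s : ℝ) (U : Matrix ι ι ℝ) (m : ι → ℝ) (T : ι → Matrix ι ι ℝ) :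
    0 ≤ wB s U m T := Finset.sum_nonneg fun _ _ => fr_nonneg _

theorem wA_nonneg (s : ℝ) (S U : Matrix ι ι ℝ) (m : ι → ℝ) (T : ι → Matrix ι ι ℝ) :
    0 ≤ wA s S U m T := Finset.sum_nonneg fun _ _ => fr_nonneg _

theorem wA_le_wB {S U : Matrix ι ι ℝ} {m : ι → ℝ} (h : Dec S U m) {s : ℝ} (hs : s ≠ 0)
    (T : ι → Matrix ι ι ℝ) : wA s S U m T ≤ wB s U m T := by
  rw [mc1 h hs, wB_eq h hs]
  refine Finset.sum_le_sum fun e _ => Finset.sum_le_sum fun i _ =>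
    Finset.sum_le_sum fun j _ => ?_
  refine mul_le_mul_of_nonneg_right ?_ (sq_nonneg _)
  have h1 : (1 - Ps s (m e)) ^ 2 ≤ 1 := by
    have := Ps_nonneg s (m e)
    have := Ps_le_one s (m e)
    nlinarith
  nlinarith [sq_nonneg (Pd s (m i) (m j))]

theorem wB_le_inv {S U : Matrix ι ι ℝ} {m : ι → ℝ} (h : Dec S U m) {s : ℝ} (hs : s ≠ 0)
    (T : ι → Matrix ι ι ℝ) : wB s U m T ≤ 1 / s ^ 2 * ∑ e, fr (T e) := by
  rw [wB_eq h hs, ← sum_fr_rot h.orth T]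
  simp only [fr, Finset.mul_sum]
  refine Finset.sum_le_sum fun e _ => Finset.sum_le_sum fun i _ =>
    Finset.sum_le_sum fun j _ => ?_
  exact mul_le_mul_of_nonneg_right (Pd_sq_le_inv hs _ _) (sq_nonneg _)

theorem int_wB_eq {S U : Matrix ι ι ℝ} {m : ι → ℝ} (h : Dec S U m) {b : ℝ} (hb : 0 < b)
    (T : ι → Matrix ι ι ℝ) :
    ∫ s in (0 : ℝ)..b, wB s U m T * (4 * s) =
      ∑ e, ∑ i, ∑ j, om b 0 (m i) (m j) * rot U T e i j ^ 2 := by
  have e1 : ∫ s in (0 : ℝ)..b, wB s U m T * (4 * s) =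
      ∫ s in (0 : ℝ)..b, ∑ e, ∑ i, ∑ j,
        Pd s (m i) (m j) ^ 2 * (4 * s) * rot U T e i j ^ 2 := by
    refine intervalIntegral.integral_congr_ae (Filter.Eventually.of_forall fun s hs => ?_)
    rw [Set.uIoc_of_le hb.le] at hs
    rw [wB_eq h hs.1.ne', Finset.sum_mul]
    refine Finset.sum_congr rfl fun e _ => ?_
    rw [Finset.sum_mul]
    refine Finset.sum_congr rfl fun i _ => ?_
    rw [Finset.sum_mul]
    refine Finset.sum_congr rfl fun j _ => ?_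
    ring
  have hi : ∀ e i j : ι, IntervalIntegrable (fun s =>
      Pd s (m i) (m j) ^ 2 * (4 * s) * rot U T e i j ^ 2) volume 0 b :=
    fun e i j => (intervalIntegrable_Pd hb (m i) (m j)).mul_const _
  have hi2 : ∀ e i : ι, IntervalIntegrable (fun s => ∑ j,
      Pd s (m i) (m j) ^ 2 * (4 * s) * rot U T e i j ^ 2) volume 0 b := by
    intro e i
    have := IntervalIntegrable.sum Finset.univ fun j _ => hi e i j
    simpa only [Finset.sum_fn] using this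
  have hi3 : ∀ e : ι, IntervalIntegrable (fun s => ∑ i, ∑ j,
      Pd s (m i) (m j) ^ 2 * (4 * s) * rot U T e i j ^ 2) volume 0 b := by
    intro e
    have := IntervalIntegrable.sum Finset.univ fun i _ => hi2 e i
    simpa only [Finset.sum_fn] using this
  rw [e1, intervalIntegral.integral_finsetSum fun e _ => hi3 e]
  refine Finset.sum_congr rfl fun e _ => ?_
  rw [intervalIntegral.integral_finsetSum fun i _ => hi2 e i]
  refine Finset.sum_congr rfl fun i _ => ?_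
  rw [intervalIntegral.integral_finsetSum fun j _ => hi e i j]
  refine Finset.sum_congr rfl fun j _ => ?_
  rw [intervalIntegral.integral_mul_const, om_zero]

/-- `∫_0^b |D P_s(S)|² 4s ds ≤ (26/5) |T|²` -/
theorem int_wB {S U : Matrix ι ι ℝ} {m : ι → ℝ} (h : Dec S U m) {b : ℝ} (hb : 0 < b)
    (T : ι → Matrix ι ι ℝ) :
    ∫ s in (0 : ℝ)..b, wB s U m T * (4 * s) ≤ 26 / 5 * ∑ e, fr (T e) := by
  rw [int_wB_eq h hb, ← sum_fr_rot h.orth T]
  simp only [fr, Finset.mul_sum]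
  refine Finset.sum_le_sum fun e _ => Finset.sum_le_sum fun i _ =>
    Finset.sum_le_sum fun j _ => ?_
  exact mul_le_mul_of_nonneg_right (om_le_const hb _ _ _) (sq_nonneg _)

/-- the same with the weights of `F = β arctan (·/β)` -/
theorem int_wB_arctan {S U : Matrix ι ι ℝ} {m : ι → ℝ} (h : Dec S U m) {b β : ℝ} (hb : 0 < b)
    (hbβ : b ≤ β) (T : ι → Matrix ι ι ℝ) :
    ∫ s in (0 : ℝ)..b, wB s U m T * (4 * s) ≤
      26 / 5 * ∑ e, ip (T e) (DK (fun x => β * Real.arctan (x / β))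
        (fun x => β ^ 2 / (β ^ 2 + x ^ 2)) U m (T e)) := by
  rw [int_wB_eq h hb, sum_ip_DK h]
  simp only [dd_arctan, Finset.mul_sum]
  refine Finset.sum_le_sum fun e _ => Finset.sum_le_sum fun i _ =>
    Finset.sum_le_sum fun j _ => ?_
  rw [← mul_assoc]
  refine mul_le_mul_of_nonneg_right ?_ (sq_nonneg _)
  refine (om_le hb _ _ _).trans ?_
  exact mul_le_mul_of_nonneg_left (weight_le hb hbβ _ _) (by norm_num)

/-! ### `tr (N P_s(S)²)` -/

/-- `tr (Qᵀ N Q) = ∑_k ∑_{ij} N_ij Q_ik Q_jk` -/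
def nq (N Q : Matrix ι ι ℝ) : ℝ := ∑ k, ∑ i, ∑ j, N i j * Q i k * Q j k

omit [DecidableEq ι] in
theorem nq_eq (N Q : Matrix ι ι ℝ) : nq N Q = (Qᵀ * N * Q).trace := by
  unfold nq Matrix.trace
  refine Finset.sum_congr rfl fun k _ => ?_
  rw [diag_apply, conjT_entry]
  refine Finset.sum_congr rfl fun i _ => Finset.sum_congr rfl fun j _ => ?_
  ring

theorem nq_mf {S U : Matrix ι ι ℝ} {m : ι → ℝ} (h : Dec S U m) (N : Matrix ι ι ℝ) (F : ℝ → ℝ) :
    nq N (mf F S) = ∑ a, (Uᵀ * N * U) a a * F (m a) ^ 2 := by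
  rw [nq_eq, h.mf_symm]
  have e1 : (mf F S * N * mf F S).trace = (N * mf (fun x => F x ^ 2) S).trace := by
    rw [Matrix.mul_assoc, trace_mul_comm, Matrix.mul_assoc, h.mf_mul]
    simp only [sq]
  have e2 : (N * mf (fun x => F x ^ 2) S).trace =
      ((Uᵀ * N * U) * diagonal fun a => F (m a) ^ 2).trace := by
    rw [h.mf_eq, ← Matrix.mul_assoc, trace_mul_comm, ← Matrix.mul_assoc, ← Matrix.mul_assoc]
  rw [e1, e2, Matrix.trace]
  refine Finset.sum_congr rfl fun a _ => ?_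
  rw [diag_apply, mul_diagonal]

theorem nq_self {S U : Matrix ι ι ℝ} {m : ι → ℝ} (h : Dec S U m) (N : Matrix ι ι ℝ) :
    nq N S = ∑ a, (Uᵀ * N * U) a a * m a ^ 2 := by
  have e := nq_mf h N (fun x => x)
  rwa [h.mf_id] at e

omit [DecidableEq ι] in
/-- diagonal entries of `Uᵀ N U` for `N` nonnegative -/
theorem conj_diag_nonneg {N : Matrix ι ι ℝ} (hN : ∀ v : ι → ℝ, 0 ≤ ∑ i, ∑ j, N i j * v i * v j)
    (U : Matrix ι ι ℝ) (a : ι) : 0 ≤ (Uᵀ * N * U) a a := by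
  rw [conjT_entry]
  have e := hN fun i => U i a
  refine e.trans (le_of_eq ?_)
  refine Finset.sum_congr rfl fun i _ => Finset.sum_congr rfl fun j _ => ?_
  ring

theorem int_nq_eq {S U : Matrix ι ι ℝ} {m : ι → ℝ} (h : Dec S U m) {b : ℝ} (hb : 0 < b)
    (N : Matrix ι ι ℝ) :
    ∫ s in (0 : ℝ)..b, nq N (mf (Ps s) S) * (4 * s) =
      ∑ a, (Uᵀ * N * U) a a * (2 * m a ^ 2 * (b ^ 2 / (b ^ 2 + m a ^ 2))) := by
  simp only [nq_mf h, Finset.sum_mul, mul_assoc]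
  rw [intervalIntegral.integral_finsetSum fun a _ =>
    (intervalIntegrable_Ps b (m a)).const_mul ((Uᵀ * (N * U)) a a)]
  refine Finset.sum_congr rfl fun a _ => ?_
  rw [intervalIntegral.integral_const_mul, int_Ps_sq hb]
  ring

/-- `∫_0^b tr (N P_s(S)²) 4s ds ≤ 2 tr (N S²)` for `N ≥ 0` -/
theorem int_nq {S U : Matrix ι ι ℝ} {m : ι → ℝ} (h : Dec S U m) {b : ℝ} (hb : 0 < b)
    {N : Matrix ι ι ℝ} (hN : ∀ v : ι → ℝ, 0 ≤ ∑ i, ∑ j, N i j * v i * v j) :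
    ∫ s in (0 : ℝ)..b, nq N (mf (Ps s) S) * (4 * s) ≤ 2 * nq N S := by
  rw [int_nq_eq h hb, nq_self h, Finset.mul_sum]
  refine Finset.sum_le_sum fun a _ => ?_
  have h0 := conj_diag_nonneg hN U a
  have h1 : b ^ 2 / (b ^ 2 + m a ^ 2) ≤ 1 := by
    apply div_le_one_of_le₀
    · linarith [sq_nonneg (m a)]
    · positivity
  have h2 : 2 * m a ^ 2 * (b ^ 2 / (b ^ 2 + m a ^ 2)) ≤ 2 * m a ^ 2 := by
    nlinarith [sq_nonneg (m a)]
  nlinarith [mul_le_mul_of_nonneg_left h2 h0]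

/-- `tr (N P_s(S)²) ≤ tr (N)`-type bound: `P_s ≤ 1` and `P_s(x)² ≤ x²/(4 s²)` -/
theorem nq_Ps_le {S U : Matrix ι ι ℝ} {m : ι → ℝ} (h : Dec S U m) {s : ℝ} (hs : s ≠ 0)
    {N : Matrix ι ι ℝ} (hN : ∀ v : ι → ℝ, 0 ≤ ∑ i, ∑ j, N i j * v i * v j) :
    nq N (mf (Ps s) S) ≤ 1 / (4 * s ^ 2) * nq N S := by
  rw [nq_mf h, nq_self h, Finset.mul_sum]
  refine Finset.sum_le_sum fun a _ => ?_
  have h0 := conj_diag_nonneg hN U a
  have h1 := Ps_sq_le hs (m a)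
  calc (Uᵀ * N * U) a a * Ps s (m a) ^ 2 ≤ (Uᵀ * N * U) a a * (m a ^ 2 / (4 * s ^ 2)) :=
        mul_le_mul_of_nonneg_left h1 h0
    _ = _ := by ring

omit [DecidableEq ι] in
theorem nq_nonneg {N : Matrix ι ι ℝ} (hN : ∀ v : ι → ℝ, 0 ≤ ∑ i, ∑ j, N i j * v i * v j)
    (Q : Matrix ι ι ℝ) : 0 ≤ nq N Q := by
  unfold nq
  exact Finset.sum_nonneg fun k _ => hN fun i => Q i k

/-! ### tensors which are only nearly symmetric -/

/-- **MC2, robust version.** `T e i j` symmetric in `i, j` only. -/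
theorem mc2_robust {S U : Matrix ι ι ℝ} {m : ι → ℝ} (h : Dec S U m) {b : ℝ} (hb : 0 < b)
    {T : ι → Matrix ι ι ℝ} (h2 : ∀ e i j, T e i j = T e j i) {d : ℝ} (hd : 0 < d) :
    ∫ s in (0 : ℝ)..b, wA s S U m T * (4 * s) ≤
      (1 + d) * (26 / 15) * ∑ e, fr (T e) +
        (1 + 1 / d) * (104 / 45) * ∑ e, ∑ i, ∑ j, (T e i j - T i e j) ^ 2 := by
  set B : ι → Matrix ι ι ℝ := fun e => of fun i j => (T e i j + T i e j + T j e i) / 3 with hB
  set R : ι → Matrix ι ι ℝ := fun e => T e - B e with hR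
  have hB1 : ∀ e i j, B e i j = B i e j := by
    intro e i j
    simp only [hB, of_apply]
    rw [h2 j e i]
    ring
  have hB2 : ∀ e i j, B e i j = B e j i := by
    intro e i j
    simp only [hB, of_apply]
    rw [h2 e i j]
    ring
  have hrot : ∀ e i j, rot U T e i j = rot U B e i j + rot U R e i j := by
    intro e i j
    rw [rot_entry, rot_entry, rot_entry, ← Finset.sum_add_distrib]
    refine Finset.sum_congr rfl fun a _ => ?_
    rw [← Finset.sum_add_distrib]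
    refine Finset.sum_congr rfl fun c _ => ?_
    rw [← Finset.sum_add_distrib]
    refine Finset.sum_congr rfl fun f _ => ?_
    simp only [hR, Matrix.sub_apply]
    ring
  have hpt : ∀ e i j, om b (m e) (m i) (m j) * rot U T e i j ^ 2 ≤
      (1 + d) * (om b (m e) (m i) (m j) * rot U B e i j ^ 2) +
        (1 + 1 / d) * (26 / 5) * rot U R e i j ^ 2 := by
    intro e i j
    have h3 : rot U T e i j ^ 2 ≤
        (1 + d) * rot U B e i j ^ 2 + (1 + 1 / d) * rot U R e i j ^ 2 := by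
      rw [hrot]
      have h4 : (1 + d) * rot U B e i j ^ 2 + (1 + 1 / d) * rot U R e i j ^ 2 -
          (rot U B e i j + rot U R e i j) ^ 2 = (d * rot U B e i j - rot U R e i j) ^ 2 / d := by
        field_simp
        ring
      have h5 : 0 ≤ (d * rot U B e i j - rot U R e i j) ^ 2 / d := by positivity
      linarith
    have h6 := om_nonneg hb (m e) (m i) (m j)
    have h7 := om_le_const hb (m e) (m i) (m j)
    have h8 : 0 ≤ (1 + 1 / d) * rot U R e i j ^ 2 := by positivity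
    calc om b (m e) (m i) (m j) * rot U T e i j ^ 2
        ≤ om b (m e) (m i) (m j) *
          ((1 + d) * rot U B e i j ^ 2 + (1 + 1 / d) * rot U R e i j ^ 2) :=
          mul_le_mul_of_nonneg_left h3 h6
      _ = (1 + d) * (om b (m e) (m i) (m j) * rot U B e i j ^ 2) +
          om b (m e) (m i) (m j) * ((1 + 1 / d) * rot U R e i j ^ 2) := by ring
      _ ≤ _ := by
          have := mul_le_mul_of_nonneg_right h7 h8
          linarith
  have hsum : ∑ e, ∑ i, ∑ j, om b (m e) (m i) (m j) * rot U T e i j ^ 2 ≤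
      (1 + d) * (∑ e, ∑ i, ∑ j, om b (m e) (m i) (m j) * rot U B e i j ^ 2) +
        (1 + 1 / d) * (26 / 5) * ∑ e, fr (rot U R e) := by
    have := Finset.sum_le_sum fun e (_ : e ∈ Finset.univ) =>
      Finset.sum_le_sum fun i (_ : i ∈ Finset.univ) =>
        Finset.sum_le_sum fun j (_ : j ∈ Finset.univ) => hpt e i j
    refine this.trans (le_of_eq ?_)
    simp only [Finset.sum_add_distrib, Finset.mul_sum, fr]
  have hBint := mc2_one h hb hB1 hB2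
  rw [mc2_eq h hb] at hBint
  rw [sum_fr_rot h.orth] at hsum
  -- `|B|² ≤ |T|²`
  have s1 : ∑ e, ∑ i, ∑ j, T i e j ^ 2 = ∑ e, fr (T e) := by
    rw [Finset.sum_comm]
    rfl
  have s2 : ∑ e, ∑ i, ∑ j, T j e i ^ 2 = ∑ e, fr (T e) := by
    have a1 : ∑ e, ∑ i, ∑ j, T j e i ^ 2 = ∑ e, ∑ j, ∑ i, T j e i ^ 2 :=
      Finset.sum_congr rfl fun e _ => Finset.sum_comm
    rw [a1]
    exact s1
  have hBT : ∑ e, fr (B e) ≤ ∑ e, fr (T e) := by
    have h3 : ∀ e i j, B e i j ^ 2 ≤ (T e i j ^ 2 + T i e j ^ 2 + T j e i ^ 2) / 3 := by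
      intro e i j
      simp only [hB, of_apply]
      nlinarith [sq_nonneg (T e i j - T i e j), sq_nonneg (T e i j - T j e i),
        sq_nonneg (T i e j - T j e i)]
    have h4 : ∑ e, fr (B e) ≤ ∑ e, ∑ i, ∑ j, (T e i j ^ 2 + T i e j ^ 2 + T j e i ^ 2) / 3 :=
      Finset.sum_le_sum fun e _ => Finset.sum_le_sum fun i _ => Finset.sum_le_sum fun j _ => h3 e i j
    refine h4.trans (le_of_eq ?_)
    simp only [← Finset.sum_div, Finset.sum_add_distrib]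
    rw [s1, s2]
    have : ∑ e, ∑ i, ∑ j, T e i j ^ 2 = ∑ e, fr (T e) := rfl
    rw [this]
    ring
  have hRW : ∑ e, fr (R e) ≤ 4 / 9 * ∑ e, ∑ i, ∑ j, (T e i j - T i e j) ^ 2 := by
    have h3 : ∀ e i j, R e i j ^ 2 ≤ 2 / 9 * (T e i j - T i e j) ^ 2 +
        2 / 9 * (T e j i - T j e i) ^ 2 := by
      intro e i j
      simp only [hR, hB, Matrix.sub_apply, of_apply]
      rw [h2 e j i]
      nlinarith [sq_nonneg ((T e i j - T i e j) - (T e i j - T j e i))]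
    have h4 : ∑ e, fr (R e) ≤ ∑ e, ∑ i, ∑ j, (2 / 9 * (T e i j - T i e j) ^ 2 +
        2 / 9 * (T e j i - T j e i) ^ 2) :=
      Finset.sum_le_sum fun e _ => Finset.sum_le_sum fun i _ => Finset.sum_le_sum fun j _ => h3 e i j
    refine h4.trans (le_of_eq ?_)
    have a1 : ∑ e, ∑ i, ∑ j, (T e j i - T j e i) ^ 2 = ∑ e, ∑ i, ∑ j, (T e i j - T i e j) ^ 2 :=
      Finset.sum_congr rfl fun e _ => Finset.sum_comm
    simp only [Finset.sum_add_distrib, ← Finset.mul_sum]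
    rw [a1]
    ring
  rw [mc2_eq h hb]
  have h9 : (1 + d) * (∑ e, ∑ i, ∑ j, om b (m e) (m i) (m j) * rot U B e i j ^ 2) ≤
      (1 + d) * (26 / 15 * ∑ e, fr (T e)) := by
    apply mul_le_mul_of_nonneg_left _ (by positivity)
    refine hBint.trans ?_
    exact mul_le_mul_of_nonneg_left hBT (by norm_num)
  have h10 : (1 + 1 / d) * (26 / 5) * ∑ e, fr (R e) ≤
      (1 + 1 / d) * (26 / 5) * (4 / 9 * ∑ e, ∑ i, ∑ j, (T e i j - T i e j) ^ 2) :=
    mul_le_mul_of_nonneg_left hRW (by positivity)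
  nlinarith

end Vale.Agent.P245.H792
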