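import Vale.Agent.P245.H485.FinDefs
import Vale.Agent.P245.H736.PSf
import Vale.Agent.P245.H792.MCb
import Vale.Agent.P245.H862.Ton
import Vale.Agent.P245.H646.CombA

/-!
# Row MC: matrix calculus under `EY` (item (MC) of the list of hypotheses of row FIN)

For a symmetric matrix field `S` with entries in `SB`, `PS s S = P_s(S)`: the integrals over the
scales `s ∈ (0, c]` of `mSq (PS s S)`, `mRE (PS s S) (PS s S)`, `mDE (PS s S)`, `mFl (PS s S)`.
-/

open Matrix MeasureTheory Set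

noncomputable section

namespace Vale.Agent.P245.H792

open Vale.Agent.P245 Vale.Agent.P245.LS Vale.Agent.P245.E1
open Vale.Agent.P254.SP620 (Dec mf DK fr exists_dec fr_nonneg)
open Vale.Agent.P245.H485 (PS SBm mSq mDE mRE mFl mTr)
open Vale.Agent.P245.H736 (SBM pdM)

/-! ### interval integrability of the pointwise quantities -/

section pointwise

variable {ι : Type*} [Fintype ι] [DecidableEq ι]

theorem ii_fr_Ps {S U : Matrix ι ι ℝ} {m : ι → ℝ} (h : Dec S U m) (b : ℝ) :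
    IntervalIntegrable (fun s => fr (mf (Ps s) S) * (4 * s)) volume 0 b := by
  simp only [fr_mf h, Finset.sum_mul]
  have := IntervalIntegrable.sum Finset.univ fun i (_ : i ∈ Finset.univ) =>
    intervalIntegrable_Ps b (m i)
  simpa only [Finset.sum_fn] using this

theorem ii_nq {S U : Matrix ι ι ℝ} {m : ι → ℝ} (h : Dec S U m) (b : ℝ) (N : Matrix ι ι ℝ) :
    IntervalIntegrable (fun s => nq N (mf (Ps s) S) * (4 * s)) volume 0 b := by
  simp only [nq_mf h, Finset.sum_mul, mul_assoc]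
  have := IntervalIntegrable.sum Finset.univ fun a (_ : a ∈ Finset.univ) =>
    (intervalIntegrable_Ps b (m a)).const_mul ((Uᵀ * (N * U)) a a)
  simpa only [Finset.sum_fn] using this

omit [DecidableEq ι] in
theorem ii_sum3 {b : ℝ} (f : ι → ι → ι → ℝ → ℝ)
    (hi : ∀ e i j, IntervalIntegrable (f e i j) volume 0 b) :
    IntervalIntegrable (fun s => ∑ e, ∑ i, ∑ j, f e i j s) volume 0 b := by
  have h2 : ∀ e i : ι, IntervalIntegrable (fun s => ∑ j, f e i j s) volume 0 b := by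
    intro e i
    have := IntervalIntegrable.sum Finset.univ fun j (_ : j ∈ Finset.univ) => hi e i j
    simpa only [Finset.sum_fn] using this
  have h3 : ∀ e : ι, IntervalIntegrable (fun s => ∑ i, ∑ j, f e i j s) volume 0 b := by
    intro e
    have := IntervalIntegrable.sum Finset.univ fun i (_ : i ∈ Finset.univ) => h2 e i
    simpa only [Finset.sum_fn] using this
  have := IntervalIntegrable.sum Finset.univ fun e (_ : e ∈ Finset.univ) => h3 e
  simpa only [Finset.sum_fn] using this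

theorem ii_congr {b : ℝ} (hb : 0 < b) {f g : ℝ → ℝ} (hf : IntervalIntegrable f volume 0 b)
    (h : ∀ s, 0 < s → f s = g s) : IntervalIntegrable g volume 0 b := by
  rw [intervalIntegrable_iff_integrableOn_Ioc_of_le hb.le] at hf ⊢
  exact (integrableOn_congr_fun (fun s hs => h s hs.1) measurableSet_Ioc).1 hf

theorem ii_wA {S U : Matrix ι ι ℝ} {m : ι → ℝ} (h : Dec S U m) {b : ℝ} (hb : 0 < b)
    (T : ι → Matrix ι ι ℝ) :
    IntervalIntegrable (fun s => wA s S U m T * (4 * s)) volume 0 b := by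
  refine ii_congr hb (ii_sum3 (fun e i j s => (1 - Ps s (m e)) ^ 2 * Pd s (m i) (m j) ^ 2 *
    (4 * s) * rot U T e i j ^ 2) fun e i j =>
      (intervalIntegrable_om hb (m e) (m i) (m j)).mul_const _) ?_
  intro s hs
  rw [mc1 h hs.ne', Finset.sum_mul]
  refine Finset.sum_congr rfl fun e _ => ?_
  rw [Finset.sum_mul]
  refine Finset.sum_congr rfl fun i _ => ?_
  rw [Finset.sum_mul]
  refine Finset.sum_congr rfl fun j _ => ?_
  ring

theorem ii_wB {S U : Matrix ι ι ℝ} {m : ι → ℝ} (h : Dec S U m) {b : ℝ} (hb : 0 < b)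
    (T : ι → Matrix ι ι ℝ) :
    IntervalIntegrable (fun s => wB s U m T * (4 * s)) volume 0 b := by
  refine ii_congr hb (ii_sum3 (fun e i j s => Pd s (m i) (m j) ^ 2 *
    (4 * s) * rot U T e i j ^ 2) fun e i j =>
      (intervalIntegrable_Pd hb (m i) (m j)).mul_const _) ?_
  intro s hs
  rw [wB_eq h hs.ne', Finset.sum_mul]
  refine Finset.sum_congr rfl fun e _ => ?_
  rw [Finset.sum_mul]
  refine Finset.sum_congr rfl fun i _ => ?_
  rw [Finset.sum_mul]
  refine Finset.sum_congr rfl fun j _ => ?_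
  ring

/-- **MC2 for `T e i j = (A i e j + A j e i) / 2`**, `A` symmetric in the last two indices. -/
theorem mc2_combA {S U : Matrix ι ι ℝ} {m : ι → ℝ} (h : Dec S U m) {b : ℝ} (hb : 0 < b)
    {T A : ι → Matrix ι ι ℝ} (hA : ∀ i e j, A i e j = A i j e)
    (hT : ∀ e i j, T e i j = (A i e j + A j e i) / 2) :
    ∫ s in (0 : ℝ)..b, wA s S U m T * (4 * s) ≤ 1951 / 1000 * ∑ i, fr (A i) := by
  rw [mc2_eq h hb, ← sum_fr_rot h.orth A]
  have hr : ∀ e i j, rot U T e i j = (rot U A i e j + rot U A j e i) / 2 := by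
    intro e i j
    have e1 : rot U A i e j = ∑ a, ∑ b, ∑ c, U a e * U b i * U c j * A b a c := by
      rw [rot_entry, Finset.sum_comm]
      refine Finset.sum_congr rfl fun a _ => Finset.sum_congr rfl fun b _ =>
        Finset.sum_congr rfl fun c _ => ?_
      ring
    have e2 : rot U A j e i = ∑ a, ∑ b, ∑ c, U a e * U b i * U c j * A c a b := by
      rw [rot_entry]
      have : ∀ x : ι, ∑ a, ∑ c, U x j * U a e * U c i * A x a c =
          ∑ a, ∑ c, U a e * U c i * U x j * A x a c := by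
        intro x
        refine Finset.sum_congr rfl fun a _ => Finset.sum_congr rfl fun c _ => ?_
        ring
      rw [Finset.sum_congr rfl fun x _ => this x, Finset.sum_comm]
      exact Finset.sum_congr rfl fun a _ => Finset.sum_comm
    rw [e1, e2, rot_entry, ← Finset.sum_add_distrib, Finset.sum_div]
    refine Finset.sum_congr rfl fun a _ => ?_
    rw [← Finset.sum_add_distrib, Finset.sum_div]
    refine Finset.sum_congr rfl fun b _ => ?_
    rw [← Finset.sum_add_distrib, Finset.sum_div]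
    refine Finset.sum_congr rfl fun c _ => ?_
    rw [hT]
    ring
  have key := H646.combA (fun i e j => rot U A i e j) (fun i e j => rot_symm2 hA U i e j) m hb
  refine le_trans (le_of_eq ?_) key
  refine Finset.sum_congr rfl fun e _ => Finset.sum_congr rfl fun i _ =>
    Finset.sum_congr rfl fun j _ => ?_
  rw [hr]

end pointwise

/-! ### fields -/

variable {n : ℕ} {μ : Measure (Fin n → ℝ)} [IsProbabilityMeasure μ] {R r c : ℝ}
  {N : (Fin n → ℝ) → ℝ} {S : (Fin n → ℝ) → Matrix (Fin n) (Fin n) ℝ}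

theorem sb_eg1 {Φ : (Fin n → ℝ) → ℝ} (h : SB Φ) : EG1 Φ := by
  obtain ⟨C, hC0, hC⟩ := h.bdd'
  refine ⟨C, hC0, fun z => (hC z).trans ?_⟩
  have h0 : 0 ≤ C * ∑ i, |z i| := by positivity
  have h1 : 1 ≤ Real.exp (C * ∑ i, |z i|) := Real.one_le_exp h0
  nlinarith

theorem sb_fr {A : (Fin n → ℝ) → Matrix (Fin n) (Fin n) ℝ} (hA : SBm A) : SB fun y => fr (A y) :=
  SB.sum _ fun i _ => SB.sum _ fun j _ => (hA i j).pow 2

omit [IsProbabilityMeasure μ] in
theorem pd_comm' {f : (Fin n → ℝ) → ℝ} (hf : SB f) (i j : Fin n) (y : Fin n → ℝ) :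
    pd (pd f i) j y = pd (pd f j) i y := by
  have h2 : ContDiff ℝ 2 f := hf.contDiff_nat 2
  have h3 : IsSymmSndFDerivAt ℝ f y := by
    apply h2.contDiffAt.isSymmSndFDerivAt
    simp
  have hd : ∀ k : Fin n, HasFDerivAt (pd f k)
      ((ContinuousLinearMap.apply ℝ ℝ (Pi.single k (1 : ℝ))).comp (fderiv ℝ (fderiv ℝ f) y)) y := by
    intro k
    have h4 : DifferentiableAt ℝ (fderiv ℝ f) y :=
      (h2.fderiv_right (m := 1) (by norm_num)).differentiable (by norm_num) y
    exact (ContinuousLinearMap.apply ℝ ℝ (Pi.single k (1 : ℝ))).hasFDerivAt.comp y h4.hasFDerivAt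
  have e : ∀ k l : Fin n,
      pd (pd f k) l y = fderiv ℝ (fderiv ℝ f) y (Pi.single l 1) (Pi.single k 1) := by
    intro k l
    unfold pd
    have := (hd k).fderiv
    unfold pd at this
    rw [this]
    rfl
  rw [e, e]
  exact h3 _ _

/-- the generic Tonelli statement for `N y * dens s y` -/
theorem ton_gen_le (hμ : CSupp μ R) (hN : Pos N) (r : ℝ) (hc : 0 < c)
    {dens : ℝ → (Fin n → ℝ) → ℝ} {G : (Fin n → ℝ) → ℝ}
    (hcont : ContinuousOn (fun p : ℝ × (Fin n → ℝ) => dens p.1 p.2) (Ioi 0 ×ˢ univ))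
    (hsb : ∀ s, 0 < s → SB (dens s)) (h0 : ∀ s, 0 < s → ∀ y, 0 ≤ dens s y)
    (hi : ∀ y, IntervalIntegrable (fun s => dens s y * (4 * s)) volume 0 c)
    (hG : SB G) (hle : ∀ y, ∫ s in (0 : ℝ)..c, dens s y * (4 * s) ≤ G y) :
    IntervalIntegrable (fun s => EY μ r (fun y => N y * dens s y) * (4 * s)) volume 0 c ∧
      ∫ s in (0 : ℝ)..c, EY μ r (fun y => N y * dens s y) * (4 * s) ≤
        EY μ r fun y => N y * G y := by
  have e : (fun s => EY μ r (fun y => N y * dens s y) * (4 * s)) =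
      fun s => EY μ r fun y => (4 * s) * (N y * dens s y) := by
    funext s
    rw [EY_const_mul, mul_comm]
  have ei : ∀ y s, (4 * s) * (N y * dens s y) = N y * (dens s y * (4 * s)) := by
    intro y s
    ring
  rw [e]
  have hGN : SB fun y => N y * G y := hN.sb.mul hG
  refine H862.ton_le (Φ := fun s y => (4 * s) * (N y * dens s y)) (G := fun y => N y * G y)
    hμ r hc.le ?_ ?_ ?_ ?_ hGN.continuous (sb_eg1 hGN) ?_
  · exact (by fun_prop : ContinuousOn (fun p : ℝ × (Fin n → ℝ) => 4 * p.1) _).mul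
      ((hN.sb.continuous.comp continuous_snd).continuousOn.mul hcont)
  · intro s hs
    exact sb_eg1 ((hN.sb.mul (hsb s hs.1)).const_mul _)
  · intro s hs y
    have := (hN.pos y).le
    have := h0 s hs.1 y
    have := hs.1.le
    positivity
  · intro y
    simp only [ei]
    exact (hi y).const_mul (N y)
  · intro y
    simp only [ei]
    rw [intervalIntegral.integral_const_mul]
    exact mul_le_mul_of_nonneg_left (hle y) (hN.pos y).le

theorem ton_gen_eq (hμ : CSupp μ R) (hN : Pos N) (r : ℝ) (hc : 0 < c)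
    {dens : ℝ → (Fin n → ℝ) → ℝ} {G : (Fin n → ℝ) → ℝ}
    (hcont : ContinuousOn (fun p : ℝ × (Fin n → ℝ) => dens p.1 p.2) (Ioi 0 ×ˢ univ))
    (hsb : ∀ s, 0 < s → SB (dens s)) (h0 : ∀ s, 0 < s → ∀ y, 0 ≤ dens s y)
    (hi : ∀ y, IntervalIntegrable (fun s => dens s y * (4 * s)) volume 0 c)
    (hG : SB G) (heq : ∀ y, ∫ s in (0 : ℝ)..c, dens s y * (4 * s) = G y) :
    IntervalIntegrable (fun s => EY μ r (fun y => N y * dens s y) * (4 * s)) volume 0 c ∧
      ∫ s in (0 : ℝ)..c, EY μ r (fun y => N y * dens s y) * (4 * s) =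
        EY μ r fun y => N y * G y := by
  have e : (fun s => EY μ r (fun y => N y * dens s y) * (4 * s)) =
      fun s => EY μ r fun y => (4 * s) * (N y * dens s y) := by
    funext s
    rw [EY_const_mul, mul_comm]
  have ei : ∀ y s, (4 * s) * (N y * dens s y) = N y * (dens s y * (4 * s)) := by
    intro y s
    ring
  rw [e]
  have hGN : SB fun y => N y * G y := hN.sb.mul hG
  refine H862.ton_eq (Φ := fun s y => (4 * s) * (N y * dens s y)) (G := fun y => N y * G y)
    hμ r hc.le ?_ ?_ ?_ ?_ hGN.continuous (sb_eg1 hGN) ?_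
  · exact (by fun_prop : ContinuousOn (fun p : ℝ × (Fin n → ℝ) => 4 * p.1) _).mul
      ((hN.sb.continuous.comp continuous_snd).continuousOn.mul hcont)
  · intro s hs
    exact sb_eg1 ((hN.sb.mul (hsb s hs.1)).const_mul _)
  · intro s hs y
    have := (hN.pos y).le
    have := h0 s hs.1 y
    have := hs.1.le
    positivity
  · intro y
    simp only [ei]
    exact (hi y).const_mul (N y)
  · intro y
    simp only [ei]
    rw [intervalIntegral.integral_const_mul, heq y]

section S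

/-! ### the densities -/

theorem PS_cont (hS : SBm S) (hsym : ∀ y, (S y)ᵀ = S y) (i j : Fin n) :
    ContinuousOn (fun p : ℝ × (Fin n → ℝ) => PS p.1 S p.2 i j) (Ioi 0 ×ˢ univ) :=
  H736.contOn_Ps (fun i j => (hS i j).continuous) hsym i j

theorem PS_sb (hS : SBm S) (hsym : ∀ y, (S y)ᵀ = S y) {s : ℝ} (hs : 0 < s) : SBm (PS s S) :=
  H736.SBM_Ps hS hsym hs

theorem pd_PS_cont (hS : SBm S) (hsym : ∀ y, (S y)ᵀ = S y) (e i j : Fin n) :
    ContinuousOn (fun p : ℝ × (Fin n → ℝ) => pd (fun z => PS p.1 S z i j) e p.2)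
      (Ioi 0 ×ˢ univ) := H736.contOn_pd_Ps hS hsym e i j

theorem pd_PS (hS : SBm S) (hsym : ∀ y, (S y)ᵀ = S y) {s : ℝ} (hs : 0 < s) (e i j : Fin n)
    {y : Fin n → ℝ} {U : Matrix (Fin n) (Fin n) ℝ} {m : Fin n → ℝ} (h : Dec (S y) U m) :
    pd (fun z => PS s S z i j) e y = DK (Ps s) (Ps' s) U m (pdM S e y) i j :=
  H736.pd_Ps_DK hS hsym hs e h i j

/-- `|D P_s(S)|²` -/
theorem dB_eq (hS : SBm S) (hsym : ∀ y, (S y)ᵀ = S y) {s : ℝ} (hs : 0 < s)
    {y : Fin n → ℝ} {U : Matrix (Fin n) (Fin n) ℝ} {m : Fin n → ℝ} (h : Dec (S y) U m) :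
    ∑ e, ∑ i, ∑ j, pd (fun z => PS s S z i j) e y ^ 2 = wB s U m fun e => pdM S e y := by
  unfold wB fr
  refine Finset.sum_congr rfl fun e _ => Finset.sum_congr rfl fun i _ =>
    Finset.sum_congr rfl fun j _ => ?_
  rw [pd_PS hS hsym hs e i j h]

/-- `|D P_s(S) (1 - P_s(S))|²` -/
theorem dA_eq (hS : SBm S) (hsym : ∀ y, (S y)ᵀ = S y) {s : ℝ} (hs : 0 < s)
    {y : Fin n → ℝ} {U : Matrix (Fin n) (Fin n) ℝ} {m : Fin n → ℝ} (h : Dec (S y) U m) :
    ∑ e, ∑ i, ∑ j, (pd (fun z => PS s S z i j) e y -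
      ∑ f, PS s S y e f * pd (fun z => PS s S z i j) f y) ^ 2 =
      wA s (S y) U m fun e => pdM S e y := by
  unfold wA fr
  refine Finset.sum_congr rfl fun e _ => Finset.sum_congr rfl fun i _ =>
    Finset.sum_congr rfl fun j _ => ?_
  rw [mix_apply]
  have e1 : mf (fun x => 1 - Ps s x) (S y) = 1 - mf (Ps s) (S y) := by
    rw [h.mf_sub (fun _ => 1) (Ps s), h.mf_const, one_smul]
  rw [e1]
  have e2 : ∀ f, ((1 : Matrix (Fin n) (Fin n) ℝ) - mf (Ps s) (S y)) e f *
      DK (Ps s) (Ps' s) U m (pdM S f y) i j =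
      (1 : Matrix (Fin n) (Fin n) ℝ) e f * DK (Ps s) (Ps' s) U m (pdM S f y) i j -
        PS s S y e f * pd (fun z => PS s S z i j) f y := by
    intro f
    rw [pd_PS hS hsym hs f i j h, Matrix.sub_apply]
    unfold PS
    ring
  simp only [e2, Finset.sum_sub_distrib]
  have e3 : ∑ f, (1 : Matrix (Fin n) (Fin n) ℝ) e f * DK (Ps s) (Ps' s) U m (pdM S f y) i j =
      pd (fun z => PS s S z i j) e y := by
    rw [Finset.sum_eq_single e, Matrix.one_apply_eq, one_mul, pd_PS hS hsym hs e i j h]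
    · intro f _ hf
      rw [Matrix.one_apply_ne (Ne.symm hf), zero_mul]
    · intro hf
      exact absurd (Finset.mem_univ e) hf
  rw [e3]

/-- **(MC), `q`** -/
theorem int_mSq (hμ : CSupp μ R) (hN : Pos N) (hS : SBm S) (hsym : ∀ y, (S y)ᵀ = S y) (r : ℝ)
    (hc : 0 < c) :
    IntervalIntegrable (fun s => mSq μ r N (PS s S) * (4 * s)) volume 0 c ∧
      ∫ s in (0 : ℝ)..c, mSq μ r N (PS s S) * (4 * s) = 2 * mTr μ r N c S := by
  have hG : ∀ y, (mf (fun x => x ^ 2 * (c ^ 2 / (c ^ 2 + x ^ 2))) (S y)).trace =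
      c ^ 2 * (PS c S y).trace := by
    intro y
    obtain ⟨U, m, h⟩ := exists_dec (hsym y)
    unfold PS
    rw [h.mf_trace, h.mf_trace, Finset.mul_sum]
    refine Finset.sum_congr rfl fun i _ => ?_
    unfold Ps
    ring
  have hGs : SB fun y => 2 * (mf (fun x => x ^ 2 * (c ^ 2 / (c ^ 2 + x ^ 2))) (S y)).trace := by
    simp only [hG]
    exact ((SBM.trace (PS_sb hS hsym hc)).const_mul _).const_mul _
  have key := ton_gen_eq (dens := fun s y => fr (PS s S y))
    (G := fun y => 2 * (mf (fun x => x ^ 2 * (c ^ 2 / (c ^ 2 + x ^ 2))) (S y)).trace)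
    hμ hN r hc ?_ ?_ ?_ ?_ hGs ?_
  · refine ⟨key.1, key.2.trans ?_⟩
    unfold mTr
    rw [← EY_const_mul]
    congr 1
    funext y
    ring
  · unfold fr
    exact continuousOn_finsetSum _ fun i _ => continuousOn_finsetSum _ fun j _ =>
      (PS_cont hS hsym i j).pow 2
  · exact fun s hs => sb_fr (PS_sb hS hsym hs)
  · exact fun s _ y => fr_nonneg _
  · intro y
    obtain ⟨U, m, h⟩ := exists_dec (hsym y)
    exact ii_fr_Ps h c
  · intro y
    obtain ⟨U, m, h⟩ := exists_dec (hsym y)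
    exact int_fr_Ps h hc

theorem contOn_dB (hS : SBm S) (hsym : ∀ y, (S y)ᵀ = S y) :
    ContinuousOn (fun p : ℝ × (Fin n → ℝ) =>
      ∑ e, ∑ i, ∑ j, pd (fun z => PS p.1 S z i j) e p.2 ^ 2) (Ioi 0 ×ˢ univ) :=
  continuousOn_finsetSum _ fun e _ => continuousOn_finsetSum _ fun i _ =>
    continuousOn_finsetSum _ fun j _ => (pd_PS_cont hS hsym e i j).pow 2

theorem contOn_dA (hS : SBm S) (hsym : ∀ y, (S y)ᵀ = S y) :
    ContinuousOn (fun p : ℝ × (Fin n → ℝ) =>
      ∑ e, ∑ i, ∑ j, (pd (fun z => PS p.1 S z i j) e p.2 -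
        ∑ f, PS p.1 S p.2 e f * pd (fun z => PS p.1 S z i j) f p.2) ^ 2) (Ioi 0 ×ˢ univ) :=
  continuousOn_finsetSum _ fun e _ => continuousOn_finsetSum _ fun i _ =>
    continuousOn_finsetSum _ fun j _ => ((pd_PS_cont hS hsym e i j).sub
      (continuousOn_finsetSum _ fun f _ => (PS_cont hS hsym e f).mul
        (pd_PS_cont hS hsym f i j))).pow 2

theorem sb_dB (hS : SBm S) (hsym : ∀ y, (S y)ᵀ = S y) {s : ℝ} (hs : 0 < s) :
    SB fun y => ∑ e, ∑ i, ∑ j, pd (fun z => PS s S z i j) e y ^ 2 :=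
  SB.sum _ fun e _ => SB.sum _ fun i _ => SB.sum _ fun j _ =>
    ((PS_sb hS hsym hs i j).pd e).pow 2

theorem sb_dA (hS : SBm S) (hsym : ∀ y, (S y)ᵀ = S y) {s : ℝ} (hs : 0 < s) :
    SB fun y => ∑ e, ∑ i, ∑ j, (pd (fun z => PS s S z i j) e y -
        ∑ f, PS s S y e f * pd (fun z => PS s S z i j) f y) ^ 2 :=
  SB.sum _ fun e _ => SB.sum _ fun i _ => SB.sum _ fun j _ =>
    (((PS_sb hS hsym hs i j).pd e).sub (SB.sum _ fun f _ => (PS_sb hS hsym hs e f).mul
      ((PS_sb hS hsym hs i j).pd f))).pow 2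

theorem sb_TT (hS : SBm S) : SB fun y => ∑ e, ∑ i, ∑ j, pd (fun z => S z i j) e y ^ 2 :=
  SB.sum _ fun e _ => SB.sum _ fun i _ => SB.sum _ fun j _ => ((hS i j).pd e).pow 2

/-- **(MC), `B`** -/
theorem int_mDE (hμ : CSupp μ R) (hN : Pos N) (hS : SBm S) (hsym : ∀ y, (S y)ᵀ = S y) (r : ℝ)
    (hc : 0 < c) :
    IntervalIntegrable (fun s => mDE μ r N (PS s S) * (4 * s)) volume 0 c ∧
      ∫ s in (0 : ℝ)..c, mDE μ r N (PS s S) * (4 * s) ≤ 26 / 5 * mDE μ r N S := by
  have key := ton_gen_le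
    (dens := fun s y => ∑ e, ∑ i, ∑ j, pd (fun z => PS s S z i j) e y ^ 2)
    (G := fun y => 26 / 5 * ∑ e, ∑ i, ∑ j, pd (fun z => S z i j) e y ^ 2)
    hμ hN r hc (contOn_dB hS hsym) (fun s hs => sb_dB hS hsym hs) (fun s _ y => by positivity)
    ?_ ((sb_TT hS).const_mul _) ?_
  · refine ⟨key.1, key.2.trans (le_of_eq ?_)⟩
    unfold mDE
    rw [← EY_const_mul]
    congr 1
    funext y
    ring
  · intro y
    obtain ⟨U, m, h⟩ := exists_dec (hsym y)
    exact ii_congr hc (ii_wB h hc fun e => pdM S e y) fun s hs => by rw [dB_eq hS hsym hs h]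
  · intro y
    obtain ⟨U, m, h⟩ := exists_dec (hsym y)
    refine le_trans (le_of_eq ?_) (int_wB h hc fun e => pdM S e y)
    refine intervalIntegral.integral_congr_ae (Filter.Eventually.of_forall fun s hs => ?_)
    rw [Set.uIoc_of_le hc.le] at hs
    rw [dB_eq hS hsym hs.1 h]

/-- **(MC), `A`**, general pointwise form -/
theorem int_mRE_gen (hμ : CSupp μ R) (hN : Pos N) (hS : SBm S) (hsym : ∀ y, (S y)ᵀ = S y)
    (r : ℝ) (hc : 0 < c) {G : (Fin n → ℝ) → ℝ} (hG : SB G)
    (hle : ∀ y U m, Dec (S y) U m →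
      ∫ s in (0 : ℝ)..c, wA s (S y) U m (fun e => pdM S e y) * (4 * s) ≤ G y) :
    IntervalIntegrable (fun s => mRE μ r N (PS s S) (PS s S) * (4 * s)) volume 0 c ∧
      ∫ s in (0 : ℝ)..c, mRE μ r N (PS s S) (PS s S) * (4 * s) ≤
        EY μ r fun y => N y * G y := by
  refine ton_gen_le
    (dens := fun s y => ∑ e, ∑ i, ∑ j, (pd (fun z => PS s S z i j) e y -
        ∑ f, PS s S y e f * pd (fun z => PS s S z i j) f y) ^ 2)
    (G := G) hμ hN r hc (contOn_dA hS hsym) (fun s hs => sb_dA hS hsym hs)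
    (fun s _ y => by positivity) ?_ hG ?_
  · intro y
    obtain ⟨U, m, h⟩ := exists_dec (hsym y)
    exact ii_congr hc (ii_wA h hc fun e => pdM S e y) fun s hs => by rw [dA_eq hS hsym hs h]
  · intro y
    obtain ⟨U, m, h⟩ := exists_dec (hsym y)
    refine le_trans (le_of_eq ?_) (hle y U m h)
    refine intervalIntegral.integral_congr_ae (Filter.Eventually.of_forall fun s hs => ?_)
    rw [Set.uIoc_of_le hc.le] at hs
    rw [dA_eq hS hsym hs.1 h]

theorem pdM_symm (hsym : ∀ y, (S y)ᵀ = S y) (e : Fin n) (y : Fin n → ℝ) (i j : Fin n) :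
    pdM S e y i j = pdM S e y j i := by
  show pd (fun z => S z i j) e y = pd (fun z => S z j i) e y
  have : (fun z => S z i j) = fun z => S z j i := by
    funext z
    have := congrFun (congrFun (hsym z) j) i
    rwa [Matrix.transpose_apply] at this
  rw [this]

/-- **(MC), `A`**, fully symmetric `D S` -/
theorem int_mRE_symm (hμ : CSupp μ R) (hN : Pos N) (hS : SBm S) (hsym : ∀ y, (S y)ᵀ = S y)
    (r : ℝ) (hc : 0 < c)
    (hT : ∀ e i j y, pd (fun z => S z i j) e y = pd (fun z => S z e j) i y) :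
    IntervalIntegrable (fun s => mRE μ r N (PS s S) (PS s S) * (4 * s)) volume 0 c ∧
      ∫ s in (0 : ℝ)..c, mRE μ r N (PS s S) (PS s S) * (4 * s) ≤ 26 / 15 * mDE μ r N S := by
  have key := int_mRE_gen (G := fun y => 26 / 15 * ∑ e, ∑ i, ∑ j, pd (fun z => S z i j) e y ^ 2)
    hμ hN hS hsym r hc ((sb_TT hS).const_mul _) ?_
  · refine ⟨key.1, key.2.trans (le_of_eq ?_)⟩
    unfold mDE
    rw [← EY_const_mul]
    congr 1
    funext y
    ring
  · intro y U m h
    exact mc2_one h hc (fun e i j => hT e i j y) (fun e i j => pdM_symm hsym e y i j)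

/-- **(MC), `A`**, nearly symmetric `D S` -/
theorem int_mRE_robust (hμ : CSupp μ R) (hN : Pos N) (hS : SBm S) (hsym : ∀ y, (S y)ᵀ = S y)
    (r : ℝ) (hc : 0 < c) {d : ℝ} (hd : 0 < d) :
    IntervalIntegrable (fun s => mRE μ r N (PS s S) (PS s S) * (4 * s)) volume 0 c ∧
      ∫ s in (0 : ℝ)..c, mRE μ r N (PS s S) (PS s S) * (4 * s) ≤
        (1 + d) * (26 / 15) * mDE μ r N S + (1 + 1 / d) * (104 / 45) *
          EY μ r fun y => N y * ∑ e, ∑ i, ∑ j,
            (pd (fun z => S z i j) e y - pd (fun z => S z e j) i y) ^ 2 := by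
  have hW : SB fun y => ∑ e, ∑ i, ∑ j,
      (pd (fun z => S z i j) e y - pd (fun z => S z e j) i y) ^ 2 :=
    SB.sum _ fun e _ => SB.sum _ fun i _ => SB.sum _ fun j _ =>
      (((hS i j).pd e).sub ((hS e j).pd i)).pow 2
  have key := int_mRE_gen
    (G := fun y => (1 + d) * (26 / 15) * (∑ e, ∑ i, ∑ j, pd (fun z => S z i j) e y ^ 2) +
      (1 + 1 / d) * (104 / 45) * ∑ e, ∑ i, ∑ j,
        (pd (fun z => S z i j) e y - pd (fun z => S z e j) i y) ^ 2)
    hμ hN hS hsym r hc (((sb_TT hS).const_mul _).add (hW.const_mul _)) ?_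
  · refine ⟨key.1, key.2.trans (le_of_eq ?_)⟩
    unfold mDE
    rw [← EY_const_mul, ← EY_const_mul, ← EY_add _ _ ((hN.sb.mul (sb_TT hS)).const_mul _)
      ((hN.sb.mul hW).const_mul _)]
    congr 1
    funext y
    ring
  · intro y U m h
    exact mc2_robust h hc (fun e i j => pdM_symm hsym e y i j) hd

/-- **(MC), `A`**, `S = κ sym (D f)` with arbitrary `f` -/
theorem int_mRE_combA (hμ : CSupp μ R) (hN : Pos N) {f : Fin n → (Fin n → ℝ) → ℝ}
    (hf : ∀ i, SB (f i)) (κ r : ℝ) (hc : 0 < c) :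
    IntervalIntegrable (fun s => mRE μ r N (PS s (H485.Sf κ f)) (PS s (H485.Sf κ f)) * (4 * s))
      volume 0 c ∧
      ∫ s in (0 : ℝ)..c, mRE μ r N (PS s (H485.Sf κ f)) (PS s (H485.Sf κ f)) * (4 * s) ≤
        1951 / 1000 * κ ^ 2 *
          EY μ r fun y => N y * ∑ i, ∑ e, ∑ j, pd (pd (f i) e) j y ^ 2 := by
  have hS : SBm (H485.Sf κ f) := fun i j => by
    unfold H485.Sf
    simp only [of_apply]
    exact (((hf i).pd j).add ((hf j).pd i)).const_mul _
  have hsym : ∀ y, (H485.Sf κ f y)ᵀ = H485.Sf κ f y := by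
    intro y
    ext i j
    unfold H485.Sf
    simp only [Matrix.transpose_apply, of_apply]
    ring
  have hD : SB fun y => ∑ i, ∑ e, ∑ j, pd (pd (f i) e) j y ^ 2 :=
    SB.sum _ fun i _ => SB.sum _ fun e _ => SB.sum _ fun j _ => (((hf i).pd e).pd j).pow 2
  have key := int_mRE_gen
    (G := fun y => 1951 / 1000 * κ ^ 2 * ∑ i, ∑ e, ∑ j, pd (pd (f i) e) j y ^ 2)
    hμ hN hS hsym r hc (hD.const_mul _) ?_
  · refine ⟨key.1, key.2.trans (le_of_eq ?_)⟩
    rw [← EY_const_mul]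
    congr 1
    funext y
    ring
  · intro y U m h
    have h1 := mc2_combA (T := fun e => pdM (H485.Sf κ f) e y)
      (A := fun i => of fun e j => κ * pd (pd (f i) e) j y) h hc
      (fun i e j => by simp only [of_apply]; rw [pd_comm' (hf i)])
      (fun e i j => by
        show pd (fun z => H485.Sf κ f z i j) e y = _
        unfold H485.Sf
        simp only [of_apply]
        rw [H736.pd_const_mul (((hf i).pd j).add ((hf j).pd i)).differentiable,
          LS.pd_add ((hf i).pd j).differentiable ((hf j).pd i).differentiable]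
        show κ / 2 * (pd (pd (f i) j) e y + pd (pd (f j) i) e y) = _
        rw [pd_comm' (hf i) j e, pd_comm' (hf j) i e]
        ring)
    refine h1.trans (le_of_eq ?_)
    rw [mul_assoc, Finset.mul_sum, Finset.mul_sum, Finset.mul_sum]
    refine Finset.sum_congr rfl fun i _ => ?_
    unfold fr
    simp only [of_apply, Finset.mul_sum]
    refine Finset.sum_congr rfl fun e _ => Finset.sum_congr rfl fun j _ => ?_
    ring

/-- `E_q tr (S² P_c(S))`, the part of `|S|²` outside the truncated square -/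
theorem mTr_eq (hN : Pos N) (hS : SBm S) (hsym : ∀ y, (S y)ᵀ = S y) (r : ℝ) (hc : 0 < c) :
    mTr μ r N c S =
      mSq μ r N S - EY μ r fun y => N y * (mf (fun x => x ^ 2 * Ps c x) (S y)).trace := by
  have e0 : ∀ y, (mf (fun x => x ^ 2 * (c ^ 2 / (c ^ 2 + x ^ 2))) (S y)).trace =
      fr (S y) - (mf (fun x => x ^ 2 * Ps c x) (S y)).trace := by
    intro y
    obtain ⟨U, m, h⟩ := exists_dec (hsym y)
    exact trace_G h hc
  have e1 : ∀ y, (mf (fun x => x ^ 2 * Ps c x) (S y)).trace =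
      fr (S y) - c ^ 2 * (PS c S y).trace := by
    intro y
    obtain ⟨U, m, h⟩ := exists_dec (hsym y)
    unfold PS
    rw [h.mf_trace, h.mf_trace, fr_dec h, Finset.mul_sum, ← Finset.sum_sub_distrib]
    refine Finset.sum_congr rfl fun i _ => ?_
    have : c ^ 2 + m i ^ 2 ≠ 0 := by positivity
    unfold Ps
    field_simp
    ring
  have hK : SB fun y => (mf (fun x => x ^ 2 * Ps c x) (S y)).trace := by
    simp only [e1]
    exact (sb_fr hS).sub ((SBM.trace (PS_sb hS hsym hc)).const_mul _)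
  have e2 : EY μ r (fun y => N y * (mf (fun x => x ^ 2 * (c ^ 2 / (c ^ 2 + x ^ 2))) (S y)).trace) =
      EY μ r fun y => N y * fr (S y) +
        (-1) * (N y * (mf (fun x => x ^ 2 * Ps c x) (S y)).trace) := by
    congr 1
    funext y
    rw [e0]
    ring
  unfold mTr mSq
  rw [e2, EY_add _ _ (hN.sb.mul (sb_fr hS)) ((hN.sb.mul hK).const_mul _), EY_const_mul]
  ring

theorem mTr_le (hN : Pos N) (hS : SBm S) (hsym : ∀ y, (S y)ᵀ = S y) (r : ℝ) (hc : 0 < c) :
    mTr μ r N c S ≤ mSq μ r N S := by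
  rw [mTr_eq hN hS hsym r hc]
  have : 0 ≤ EY μ r fun y => N y * (mf (fun x => x ^ 2 * Ps c x) (S y)).trace := by
    apply EY_nonneg
    intro y
    obtain ⟨U, m, h⟩ := exists_dec (hsym y)
    rw [h.mf_trace]
    exact mul_nonneg (hN.pos y).le
      (Finset.sum_nonneg fun i _ => mul_nonneg (sq_nonneg _) (Ps_nonneg _ _))
  linarith

end S

/-! ### the flats term -/

section flats

variable {ρ0 : (Fin n → ℝ) → ℝ} [IsProbabilityMeasure (mu ρ0)]

theorem PV_nonneg (hρ : LCd ρ0) (hμ : CSupp (mu ρ0) R) (hr : 0 < r) (y v : Fin n → ℝ) :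
    0 ≤ ∑ i, ∑ j, (of fun i j => PV (mu ρ0) r i j y : Matrix (Fin n) (Fin n) ℝ) i j *
      v i * v j := by
  have h := Pq_nonneg hρ hμ hr y v
  unfold Pq at h
  refine h.trans (le_of_eq ?_)
  refine Finset.sum_congr rfl fun i _ => Finset.sum_congr rfl fun j _ => ?_
  rw [of_apply, PV_eq' hμ hr]

/-- **(MC), `Fl`** -/
theorem int_mFl (hρ : LCd ρ0) (hμ : CSupp (mu ρ0) R) (hN : Pos N) (hS : SBm S)
    (hsym : ∀ y, (S y)ᵀ = S y) (hr : 0 < r) (hc : 0 < c) :
    IntervalIntegrable (fun s => mFl (mu ρ0) r N (PS s S) * (4 * s)) volume 0 c ∧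
      ∫ s in (0 : ℝ)..c, mFl (mu ρ0) r N (PS s S) * (4 * s) ≤ 2 * mFl (mu ρ0) r N S := by
  have hP : ∀ i j, SB (PV (mu ρ0) r i j) := fun i j => PV_sb' hμ r i j
  have key := ton_gen_le
    (dens := fun s y => nq (of fun i j => PV (mu ρ0) r i j y) (PS s S y))
    (G := fun y => 2 * nq (of fun i j => PV (mu ρ0) r i j y) (S y))
    hμ hN r hc ?_ ?_ ?_ ?_ ?_ ?_
  · refine ⟨key.1, key.2.trans (le_of_eq ?_)⟩
    unfold mFl
    rw [← EY_const_mul]
    congr 1
    funext y
    unfold nq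
    simp only [of_apply]
    ring
  · unfold nq
    simp only [of_apply]
    exact continuousOn_finsetSum _ fun k _ => continuousOn_finsetSum _ fun i _ =>
      continuousOn_finsetSum _ fun j _ =>
        ((((hP i j).continuous.comp continuous_snd).continuousOn.mul
          (PS_cont hS hsym i k)).mul (PS_cont hS hsym j k))
  · intro s hs
    unfold nq
    simp only [of_apply]
    exact SB.sum _ fun k _ => SB.sum _ fun i _ => SB.sum _ fun j _ =>
      ((hP i j).mul (PS_sb hS hsym hs i k)).mul (PS_sb hS hsym hs j k)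
  · intro s _ y
    exact nq_nonneg (PV_nonneg hρ hμ hr y) _
  · intro y
    obtain ⟨U, m, h⟩ := exists_dec (hsym y)
    exact ii_nq h c _
  · unfold nq
    simp only [of_apply]
    exact (SB.sum _ fun k _ => SB.sum _ fun i _ => SB.sum _ fun j _ =>
      ((hP i j).mul (hS i k)).mul (hS j k)).const_mul _
  · intro y
    obtain ⟨U, m, h⟩ := exists_dec (hsym y)
    exact int_nq h hc (PV_nonneg hρ hμ hr y)

end flats

end Vale.Agent.P245.H792
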