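import Vale.Agent.P245.H485.FinS
import Vale.Agent.P245.H792.MCc

/-!
# Row MC: the structure `MCout` of row FIN
-/

open Matrix MeasureTheory Set

noncomputable section

namespace Vale.Agent.P245.H792

open Vale.Agent.P245 Vale.Agent.P245.LS Vale.Agent.P245.E1
open Vale.Agent.P254.SP620 (Dec mf DK fr exists_dec fr_nonneg)
open Vale.Agent.P245.H485 (PS SBm mSq mDE mRE mFl mTr mAs MCout)

variable {n : ℕ} {ρ0 : (Fin n → ℝ) → ℝ} [IsProbabilityMeasure (mu ρ0)] {R b : ℝ}
  {N : (Fin n → ℝ) → ℝ} {S : (Fin n → ℝ) → Matrix (Fin n) (Fin n) ℝ}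

/-- **all scale integrals of `P_s(S)`** -/
theorem mcout (hρ : LCd ρ0) (hμ : CSupp (mu ρ0) R) (hb : 0 < b) (hN : Pos N)
    (hsym : ∀ y, (S y).transpose = S y) (hS : SBm S) : MCout (mu ρ0) b N S := by
  have hq := int_mSq hμ hN hS hsym b (c := 1) one_pos
  have hB := int_mDE hμ hN hS hsym b (c := 1) one_pos
  have hF := int_mFl hρ hμ hN hS hsym hb (c := 1) one_pos
  have hA := fun d (hd : (0 : ℝ) < d) => int_mRE_robust hμ hN hS hsym b (c := 1) one_pos hd
  refine ⟨hq.1, (hA 1 one_pos).1, hB.1, hF.1, hq.2, fun d hd => (hA d hd).2, hB.2, hF.2,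
    fun s _ => ?_, fun s _ => ?_, fun s _ => ?_, fun s _ => ?_⟩
  · exact EY_nonneg _ _ fun y => mul_nonneg (hN.pos y).le (fr_nonneg _)
  · exact EY_nonneg _ _ fun y => mul_nonneg (hN.pos y).le (by positivity)
  · exact EY_nonneg _ _ fun y => mul_nonneg (hN.pos y).le (by positivity)
  · refine EY_nonneg _ _ fun y => mul_nonneg (hN.pos y).le ?_
    have := nq_nonneg (PV_nonneg hρ hμ hb y) (PS s S y)
    unfold nq at this
    simpa only [of_apply] using this

end Vale.Agent.P245.H792
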