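import Mathlib

/-!
# The combinatorial bound (15) of the P245 proof, with eta = 1

`jj` is the common integrand in the variable `v = s ^ 2`.
-/

namespace Vale.Agent.P245.H792

open MeasureTheory Set Filter Topology

/-- The common integrand in the variable `v = s ^ 2`. -/
noncomputable def jj (A B C v : ℝ) : ℝ :=
  v ^ 4 / ((v + A) ^ 2 * (v + B) ^ 2 * (v + C) ^ 2)

/-- The comparison function. -/
noncomputable def psi (A B C k v : ℝ) : ℝ :=
  v ^ 4 / ((v + A) * (v + B) * (v + C) * (v + k))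

/-- Its derivative. -/
noncomputable def psi' (A B C k v : ℝ) : ℝ :=
  (4 * v ^ 3 * ((v + A) * (v + B) * (v + C) * (v + k)) -
    v ^ 4 * (((v + B) * (v + C) + (v + A) * (v + C) + (v + A) * (v + B)) * (v + k) +
      (v + A) * (v + B) * (v + C))) /
    ((v + A) * (v + B) * (v + C) * (v + k)) ^ 2

theorem hasDerivAt_psi {A B C k v : ℝ} (hA : 0 ≤ A) (hB : 0 ≤ B) (hC : 0 ≤ C) (hk : 0 ≤ k)
    (hv : 0 < v) : HasDerivAt (psi A B C k) (psi' A B C k v) v := by
  have h1 : HasDerivAt (fun v : ℝ => v ^ 4) (4 * v ^ 3) v := by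
    simpa using hasDerivAt_pow 4 v
  have ha : ∀ a : ℝ, HasDerivAt (fun v : ℝ => v + a) 1 v := fun a =>
    (hasDerivAt_id v).add_const a
  have h2 := (((ha A).mul (ha B)).mul (ha C)).mul (ha k)
  have hne : (v + A) * (v + B) * (v + C) * (v + k) ≠ 0 := by positivity
  have h3 := h1.div h2 hne
  refine HasDerivAt.congr_deriv h3 ?_
  unfold psi'
  congr 1
  simp only [Pi.mul_apply]
  ring

/-- The key algebraic inequality. -/
theorem le_psi' {A B C k v : ℝ} (hA : 0 ≤ A) (hB : 0 ≤ B) (hC : 0 ≤ C) (hk : 0 ≤ k)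
    (hv : 0 < v) (h1 : k ^ 2 ≤ A * B + A * C + B * C)
    (h2 : k * (A + B + C) + k ^ 2 ≤ 3 * (A * B + A * C + B * C)) :
    (A + B + C + k) * jj A B C v ≤ psi' A B C k v := by
  unfold jj psi'
  have hD : 0 < (v + A) * (v + B) * (v + C) := by positivity
  have hk' : 0 < v + k := by positivity
  rw [← mul_div_assoc, div_le_div_iff₀ (by positivity) (by positivity)]
  have key : 0 ≤ 2 * ((A * B + A * C + B * C) - k ^ 2) * v ^ 2 +
      (3 * (A * B * C) + k * (3 * (A * B + A * C + B * C) - (k * (A + B + C) + k ^ 2))) * v +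
      4 * k * (A * B * C) := by
    have : 0 ≤ (A * B + A * C + B * C) - k ^ 2 := by linarith
    have : 0 ≤ 3 * (A * B + A * C + B * C) - (k * (A + B + C) + k ^ 2) := by linarith
    positivity
  have hP : 0 ≤ ((v + A) * (v + B) * (v + C)) ^ 2 * v ^ 3 := by positivity
  have := mul_nonneg hP key
  have e : (4 * v ^ 3 * ((v + A) * (v + B) * (v + C) * (v + k)) -
      v ^ 4 * (((v + B) * (v + C) + (v + A) * (v + C) + (v + A) * (v + B)) * (v + k) +
      (v + A) * (v + B) * (v + C))) * ((v + A) ^ 2 * (v + B) ^ 2 * (v + C) ^ 2) -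
      (A + B + C + k) * v ^ 4 * ((v + A) * (v + B) * (v + C) * (v + k)) ^ 2 =
      ((v + A) * (v + B) * (v + C)) ^ 2 * v ^ 3 *
      (2 * ((A * B + A * C + B * C) - k ^ 2) * v ^ 2 +
      (3 * (A * B * C) + k * (3 * (A * B + A * C + B * C) - (k * (A + B + C) + k ^ 2))) * v +
      4 * k * (A * B * C)) := by
    ring
  linarith

theorem psi_nonneg {A B C k v : ℝ} (hA : 0 ≤ A) (hB : 0 ≤ B) (hC : 0 ≤ C) (hk : 0 ≤ k)
    (hv : 0 ≤ v) : 0 ≤ psi A B C k v := by
  unfold psi; positivity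

theorem psi_le {A B C k v : ℝ} (hA : 0 ≤ A) (hB : 0 ≤ B) (hC : 0 ≤ C) (hk : 0 ≤ k)
    (hv : 0 < v) : psi A B C k v ≤ v / (v + A) := by
  unfold psi
  rw [div_le_div_iff₀ (by positivity) (by positivity)]
  have h : v ^ 3 ≤ (v + B) * (v + C) * (v + k) := by
    have : (v + B) * (v + C) * (v + k) - v ^ 3 =
        v ^ 2 * (B + C + k) + v * (B * C + B * k + C * k) + B * C * k := by ring
    have h2 : 0 ≤ v ^ 2 * (B + C + k) + v * (B * C + B * k + C * k) + B * C * k := by positivity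
    linarith
  have h3 : 0 ≤ v * (v + A) := by positivity
  nlinarith [mul_le_mul_of_nonneg_left h h3]

theorem continuousOn_psi {A B C k b : ℝ} (hA : 0 < A) (hB : 0 ≤ B) (hC : 0 ≤ C) (hk : 0 ≤ k) :
    ContinuousOn (psi A B C k) (Icc 0 b) := by
  intro v hv
  rcases hv.1.eq_or_lt with h | h
  · subst h
    have h0 : psi A B C k 0 = 0 := by simp [psi]
    unfold ContinuousWithinAt
    rw [h0]
    have hup : Tendsto (fun v : ℝ => v / (v + A)) (𝓝[Icc 0 b] 0) (𝓝 0) := by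
      have : ContinuousAt (fun v : ℝ => v / (v + A)) 0 := by
        apply ContinuousAt.div continuousAt_id (continuousAt_id.add continuousAt_const)
        simpa using hA.ne'
      have h1 := this.tendsto.mono_left (nhdsWithin_le_nhds (s := Icc 0 b))
      simpa using h1
    refine tendsto_of_tendsto_of_tendsto_of_le_of_le' tendsto_const_nhds hup ?_ ?_
    · filter_upwards [self_mem_nhdsWithin] with v hv
      exact psi_nonneg hA.le hB hC hk hv.1
    · filter_upwards [self_mem_nhdsWithin] with v hv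
      rcases hv.1.eq_or_lt with h | h
      · rw [← h]; simp [psi]
      · exact psi_le hA.le hB hC hk h
  · exact (hasDerivAt_psi hA.le hB hC hk h).continuousAt.continuousWithinAt

theorem jj_nonneg {A B C v : ℝ} (_hv : 0 ≤ v) : 0 ≤ jj A B C v := by
  unfold jj; positivity

theorem jj_le {A B C v : ℝ} (hA : 0 < A) (hB : 0 ≤ B) (hC : 0 ≤ C) (hv : 0 ≤ v) :
    jj A B C v ≤ 1 / A ^ 2 := by
  rcases hv.eq_or_lt with h | h
  · rw [← h]; simp [jj]; positivity
  · unfold jj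
    rw [div_le_div_iff₀ (by positivity) (by positivity)]
    have h1 : A ^ 2 ≤ (v + A) ^ 2 := by gcongr; linarith
    have h2 : v ^ 2 ≤ (v + B) ^ 2 := by gcongr; linarith
    have h3 : v ^ 2 ≤ (v + C) ^ 2 := by gcongr; linarith
    calc v ^ 4 * A ^ 2 = A ^ 2 * v ^ 2 * v ^ 2 := by ring
      _ ≤ (v + A) ^ 2 * (v + B) ^ 2 * (v + C) ^ 2 := by gcongr
      _ = 1 * ((v + A) ^ 2 * (v + B) ^ 2 * (v + C) ^ 2) := by ring

theorem measurable_jj (A B C : ℝ) : Measurable (jj A B C) := by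
  unfold jj; fun_prop

theorem integrableOn_jj {A B C b : ℝ} (hA : 0 < A) (hB : 0 ≤ B) (hC : 0 ≤ C) :
    IntegrableOn (jj A B C) (Icc 0 b) := by
  refine Measure.integrableOn_of_bounded (M := 1 / A ^ 2) ?_ ?_ ?_
  · simp [Real.volume_Icc]
  · exact (measurable_jj A B C).aestronglyMeasurable
  · refine (ae_restrict_iff' measurableSet_Icc).2 (Eventually.of_forall fun v hv => ?_)
    rw [Real.norm_of_nonneg (jj_nonneg hv.1)]
    exact jj_le hA hB hC hv.1

/-- The integral inequality. -/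
theorem int_jj_le {A B C k b : ℝ} (hA : 0 < A) (hB : 0 ≤ B) (hC : 0 ≤ C) (hk : 0 ≤ k)
    (hb : 0 < b) (h1 : k ^ 2 ≤ A * B + A * C + B * C)
    (h2 : k * (A + B + C) + k ^ 2 ≤ 3 * (A * B + A * C + B * C)) :
    (A + B + C + k) * ∫ v in (0 : ℝ)..b, jj A B C v ≤ psi A B C k b := by
  rw [← intervalIntegral.integral_const_mul]
  have := intervalIntegral.integral_le_sub_of_hasDeriv_right_of_le (a := 0) (b := b)
    (g := psi A B C k) (g' := psi' A B C k) (φ := fun v => (A + B + C + k) * jj A B C v) hb.le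
    (continuousOn_psi hA hB hC hk)
    (fun v hv => (hasDerivAt_psi hA.le hB hC hk hv.1).hasDerivWithinAt)
    ((integrableOn_jj hA hB hC).const_mul _)
    (fun v hv => le_psi' hA.le hB hC hk hv.1 h1 h2)
  have h0 : psi A B C k 0 = 0 := by simp [psi]
  rw [h0, sub_zero] at this
  exact this

theorem psi_swap1 (A B C k v : ℝ) : psi A B C k v = psi B A C k v := by
  unfold psi; congr 1; ring

theorem psi_swap2 (A B C k v : ℝ) : psi A B C k v = psi A C B k v := by
  unfold psi; congr 1; ring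

theorem jj_swap1 (A B C v : ℝ) : jj A B C v = jj B A C v := by
  unfold jj; congr 1; ring

theorem jj_swap2 (A B C v : ℝ) : jj A B C v = jj A C B v := by
  unfold jj; congr 1; ring

theorem psi_le_max {A B C k v : ℝ} (hA : 0 ≤ A) (hB : 0 ≤ B) (hC : 0 ≤ C) (hk : 0 ≤ k)
    (hv : 0 < v) : psi A B C k v ≤ v / (v + max A (max B C)) := by
  rcases le_total A (max B C) with h | h
  · rw [max_eq_right h]
    rcases le_total B C with h' | h'
    · rw [max_eq_right h', psi_swap2, psi_swap1]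
      exact psi_le hC hA hB hk hv
    · rw [max_eq_left h', psi_swap1]
      exact psi_le hB hA hC hk hv
  · rw [max_eq_left h]
    exact psi_le hA hB hC hk hv

/-- The bound on `J` for the choice of `k`, with the maximum on the right. -/
theorem int_jj_le_max {A B C k b : ℝ} (hA : 0 ≤ A) (hB : 0 ≤ B) (hC : 0 ≤ C) (hk : 0 ≤ k)
    (hb : 0 < b) (hs : 0 < A + B + C) (h1 : k ^ 2 ≤ A * B + A * C + B * C)
    (h2 : k * (A + B + C) + k ^ 2 ≤ 3 * (A * B + A * C + B * C)) :
    (A + B + C + k) * ∫ v in (0 : ℝ)..b, jj A B C v ≤ b / (b + max A (max B C)) := by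
  refine le_trans ?_ (psi_le_max hA hB hC hk hb)
  rcases hA.eq_or_lt with h | h
  · rcases hB.eq_or_lt with h' | h'
    · have hC' : 0 < C := by rw [← h, ← h'] at hs; linarith
      have := int_jj_le (b := b) hC' hA hB hk hb (by linarith) (by nlinarith)
      rw [psi_swap2, psi_swap1]
      simp only [jj_swap2 A B C, jj_swap1 A C B]
      have e : A + B + C + k = C + A + B + k := by ring
      rw [e]; exact this
    · have := int_jj_le (b := b) h' hA hC hk hb (by linarith) (by nlinarith)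
      rw [psi_swap1]
      simp only [jj_swap1 A B C]
      have e : A + B + C + k = B + A + C + k := by ring
      rw [e]; exact this
  · exact int_jj_le h hB hC hk hb h1 h2

/-- **The scalar inequality** `2 (e1 + p) J ≤ (13/5) B/(B+M)`. -/
theorem scalar_bound (x y z : ℝ) {b : ℝ} (hb : 0 < b) :
    ((x + y) ^ 2 + (x + z) ^ 2 + (y + z) ^ 2) * ∫ v in (0 : ℝ)..b, jj (x ^ 2) (y ^ 2) (z ^ 2) v ≤
      13 / 5 * (b / (b + max (x ^ 2) (max (y ^ 2) (z ^ 2)))) := by
  by_cases hs : x ^ 2 + y ^ 2 + z ^ 2 = 0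
  · have hx : x = 0 := by nlinarith [sq_nonneg x, sq_nonneg y, sq_nonneg z]
    have hy : y = 0 := by nlinarith [sq_nonneg x, sq_nonneg y, sq_nonneg z]
    have hz : z = 0 := by nlinarith [sq_nonneg x, sq_nonneg y, sq_nonneg z]
    subst hx hy hz
    simp
    positivity
  have hs' : 0 < x ^ 2 + y ^ 2 + z ^ 2 :=
    lt_of_le_of_ne (by positivity) (Ne.symm hs)
  set p := x * y + x * z + y * z with hp
  set k := max 0 ((10 * p - 3 * (x ^ 2 + y ^ 2 + z ^ 2)) / 13) with hk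
  have hk0 : 0 ≤ k := le_max_left _ _
  have hpe : p ≤ x ^ 2 + y ^ 2 + z ^ 2 := by
    nlinarith [sq_nonneg (x - y), sq_nonneg (x - z), sq_nonneg (y - z)]
  have hp2 : p ^ 2 ≤ 3 * (x ^ 2 * y ^ 2 + x ^ 2 * z ^ 2 + y ^ 2 * z ^ 2) := by
    nlinarith [sq_nonneg (x * y - x * z), sq_nonneg (x * y - y * z), sq_nonneg (x * z - y * z)]
  have h12 : k ^ 2 ≤ x ^ 2 * y ^ 2 + x ^ 2 * z ^ 2 + y ^ 2 * z ^ 2 ∧
      k * (x ^ 2 + y ^ 2 + z ^ 2) + k ^ 2 ≤
        3 * (x ^ 2 * y ^ 2 + x ^ 2 * z ^ 2 + y ^ 2 * z ^ 2) := by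
    rcases le_total ((10 * p - 3 * (x ^ 2 + y ^ 2 + z ^ 2)) / 13) 0 with h | h
    · have : k = 0 := by rw [hk, max_eq_left h]
      rw [this]
      constructor <;> [skip; skip] <;> ring_nf <;> positivity
    · have hkk : k = (10 * p - 3 * (x ^ 2 + y ^ 2 + z ^ 2)) / 13 := by rw [hk, max_eq_right h]
      have hp0 : 0 ≤ p := by linarith
      set e := x ^ 2 + y ^ 2 + z ^ 2 with he
      have h7 : k ≤ 7 * p / 13 := by rw [hkk]; linarith
      constructor
      · have : k ^ 2 ≤ (7 * p / 13) ^ 2 := by gcongr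
        nlinarith
      · have e1 : k * e + k ^ 2 ≤ p ^ 2 := by
          rw [hkk]
          nlinarith [sq_nonneg (e - 7 / 6 * p), sq_nonneg p]
        linarith
  have := int_jj_le_max (A := x ^ 2) (B := y ^ 2) (C := z ^ 2) (k := k) (b := b)
    (by positivity) (by positivity) (by positivity) hk0 hb hs' h12.1 h12.2
  have hJ : 0 ≤ ∫ v in (0 : ℝ)..b, jj (x ^ 2) (y ^ 2) (z ^ 2) v :=
    intervalIntegral.integral_nonneg hb.le fun v hv => jj_nonneg hv.1
  have hle : (x + y) ^ 2 + (x + z) ^ 2 + (y + z) ^ 2 ≤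
      13 / 5 * (x ^ 2 + y ^ 2 + z ^ 2 + k) := by
    have : (10 * p - 3 * (x ^ 2 + y ^ 2 + z ^ 2)) / 13 ≤ k := le_max_right _ _
    have e : (x + y) ^ 2 + (x + z) ^ 2 + (y + z) ^ 2 = 2 * (x ^ 2 + y ^ 2 + z ^ 2) + 2 * p := by
      rw [hp]; ring
    rw [e]; linarith
  calc ((x + y) ^ 2 + (x + z) ^ 2 + (y + z) ^ 2) * ∫ v in (0 : ℝ)..b, jj (x ^ 2) (y ^ 2) (z ^ 2) v
      ≤ 13 / 5 * (x ^ 2 + y ^ 2 + z ^ 2 + k) * ∫ v in (0 : ℝ)..b, jj (x ^ 2) (y ^ 2) (z ^ 2) v := by
        gcongr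
    _ = 13 / 5 * ((x ^ 2 + y ^ 2 + z ^ 2 + k) *
          ∫ v in (0 : ℝ)..b, jj (x ^ 2) (y ^ 2) (z ^ 2) v) := by ring
    _ ≤ _ := by gcongr

end Vale.Agent.P245.H792
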