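import Vale.Agent.P254.SP.H620.DK
import Vale.Agent.P245.H792.Sym

/-!
# Row MC: matrix calculus, pointwise part

Frame-free form of the combinatorial bound (15): `Dec S U m` is a spectral decomposition,
`T : ι → Matrix ι ι ℝ` the slices of a 3-tensor, `DK` the Daleckii-Krein derivative.
-/

open Matrix Finset MeasureTheory

noncomputable section

namespace Vale.Agent.P245.H792

open Vale.Agent.P254.S130 Vale.Agent.P254.SP620

variable {ι : Type*} [Fintype ι]

/-- Frobenius pairing. -/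
def ip (X Y : Matrix ι ι ℝ) : ℝ := ∑ i, ∑ j, X i j * Y i j

theorem ip_self (X : Matrix ι ι ℝ) : ip X X = fr X := by
  unfold ip fr
  refine Finset.sum_congr rfl fun i _ => Finset.sum_congr rfl fun j _ => ?_
  ring

theorem ip_comm (X Y : Matrix ι ι ℝ) : ip X Y = ip Y X := by
  unfold ip
  refine Finset.sum_congr rfl fun i _ => Finset.sum_congr rfl fun j _ => ?_
  ring

theorem ip_eq_trace (X Y : Matrix ι ι ℝ) : ip X Y = (Xᵀ * Y).trace := by
  rw [ip, Matrix.trace, Finset.sum_comm]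
  refine Finset.sum_congr rfl fun i _ => ?_
  rw [diag_apply, mul_apply]
  refine Finset.sum_congr rfl fun j _ => ?_
  rw [transpose_apply]

/-- Mixing of slices: `(mix O D) e = ∑ f, O e f • D f`. -/
def mix (O : Matrix ι ι ℝ) (D : ι → Matrix ι ι ℝ) (e : ι) : Matrix ι ι ℝ := ∑ f, O e f • D f

theorem mix_apply (O : Matrix ι ι ℝ) (D : ι → Matrix ι ι ℝ) (e i j : ι) :
    mix O D e i j = ∑ f, O e f * D f i j := by
  unfold mix
  rw [Matrix.sum_apply]
  rfl

theorem mix_mul (A B : Matrix ι ι ℝ) (D : ι → Matrix ι ι ℝ) :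
    mix (A * B) D = mix A (mix B D) := by
  funext e
  ext i j
  rw [mix_apply, mix_apply]
  simp only [mix_apply, Matrix.mul_apply, Finset.sum_mul, Finset.mul_sum]
  rw [Finset.sum_comm]
  refine Finset.sum_congr rfl fun g _ => Finset.sum_congr rfl fun f _ => ?_
  ring

variable [DecidableEq ι]

theorem mix_diagonal (k : ι → ℝ) (D : ι → Matrix ι ι ℝ) (e : ι) :
    mix (diagonal k) D e = k e • D e := by
  ext i j
  rw [mix_apply, Matrix.smul_apply, smul_eq_mul, Finset.sum_eq_single e]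
  · rw [diagonal_apply_eq]
  · intro f _ hf
    rw [diagonal_apply_ne _ (Ne.symm hf), zero_mul]
  · intro h
    exact absurd (Finset.mem_univ e) h

theorem mix_one (D : ι → Matrix ι ι ℝ) : mix 1 D = D := by
  funext e
  rw [← diagonal_one, mix_diagonal, one_smul]

/-- Orthogonal mixing of the slices preserves the pairing. -/
theorem sum_ip_mix {O : Matrix ι ι ℝ} (hO : Oᵀ * O = 1) (D E : ι → Matrix ι ι ℝ) :
    ∑ e, ip (mix O D e) (mix O E e) = ∑ e, ip (D e) (E e) := by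
  have key : ∀ i j : ι, ∑ e, mix O D e i j * mix O E e i j = ∑ e, D e i j * E e i j := by
    intro i j
    have h1 : ∀ (X : ι → Matrix ι ι ℝ) (e : ι),
        mix O X e i j = (O *ᵥ fun f => X f i j) e := by
      intro X e
      rw [mix_apply]
      rfl
    simp only [h1]
    have h2 : (O *ᵥ fun f => D f i j) ⬝ᵥ (O *ᵥ fun f => E f i j) =
        (fun f => D f i j) ⬝ᵥ fun f => E f i j := by
      rw [← vecMul_transpose, ← dotProduct_mulVec, mulVec_mulVec, hO, one_mulVec]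
    exact h2
  unfold ip
  rw [Finset.sum_comm]
  have h3 : ∑ e, ∑ i, ∑ j, D e i j * E e i j = ∑ i, ∑ j, ∑ e, D e i j * E e i j := by
    rw [Finset.sum_comm]
    exact Finset.sum_congr rfl fun i _ => Finset.sum_comm
  rw [h3]
  refine Finset.sum_congr rfl fun i _ => ?_
  rw [Finset.sum_comm]
  exact Finset.sum_congr rfl fun j _ => key i j

theorem sum_fr_mix {O : Matrix ι ι ℝ} (hO : Oᵀ * O = 1) (D : ι → Matrix ι ι ℝ) :
    ∑ e, fr (mix O D e) = ∑ e, fr (D e) := by
  have h := sum_ip_mix hO D D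
  simpa only [ip_self] using h

theorem ip_conj {U : Matrix ι ι ℝ} (hU : Uᵀ * U = 1) (X Y : Matrix ι ι ℝ) :
    ip (Uᵀ * X * U) (Uᵀ * Y * U) = ip X Y := by
  have hU' : U * Uᵀ = 1 := mul_eq_one_comm.1 hU
  rw [ip_eq_trace, ip_eq_trace]
  have h1 : (Uᵀ * X * U)ᵀ * (Uᵀ * Y * U) = Uᵀ * (Xᵀ * Y * U) := by
    rw [transpose_mul, transpose_mul, transpose_transpose]
    calc Uᵀ * (Xᵀ * U) * (Uᵀ * Y * U) = Uᵀ * Xᵀ * (U * Uᵀ) * Y * U := by
          simp only [Matrix.mul_assoc]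
      _ = _ := by
          rw [hU', Matrix.mul_one]
          simp only [Matrix.mul_assoc]
  rw [h1, trace_mul_comm, Matrix.mul_assoc, hU', Matrix.mul_one]

/-- The tensor in the frame `U`. -/
def rot (U : Matrix ι ι ℝ) (D : ι → Matrix ι ι ℝ) (e : ι) : Matrix ι ι ℝ :=
  Uᵀ * mix Uᵀ D e * U

omit [DecidableEq ι] in
theorem rot_apply (U : Matrix ι ι ℝ) (D : ι → Matrix ι ι ℝ) (e i j : ι) :
    rot U D e i j = ∑ a, U a e * (Uᵀ * D a * U) i j := by
  unfold rot mix
  rw [Matrix.mul_sum, Matrix.sum_mul, Matrix.sum_apply]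
  refine Finset.sum_congr rfl fun a _ => ?_
  rw [Matrix.mul_smul, Matrix.smul_mul, Matrix.smul_apply, transpose_apply, smul_eq_mul]

omit [DecidableEq ι] in
theorem rot_entry (U : Matrix ι ι ℝ) (D : ι → Matrix ι ι ℝ) (e i j : ι) :
    rot U D e i j = ∑ a, ∑ b, ∑ c, U a e * U b i * U c j * D a b c := by
  rw [rot_apply]
  refine Finset.sum_congr rfl fun a _ => ?_
  rw [conjT_entry, Finset.mul_sum]
  refine Finset.sum_congr rfl fun b _ => ?_
  rw [Finset.mul_sum]
  refine Finset.sum_congr rfl fun c _ => ?_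
  ring

omit [DecidableEq ι] in
theorem rot_symm1 {T : ι → Matrix ι ι ℝ} (h1 : ∀ e i j, T e i j = T i e j) (U : Matrix ι ι ℝ)
    (e i j : ι) : rot U T e i j = rot U T i e j := by
  rw [rot_entry, rot_entry, Finset.sum_comm]
  refine Finset.sum_congr rfl fun b _ => Finset.sum_congr rfl fun a _ =>
    Finset.sum_congr rfl fun c _ => ?_
  rw [h1 a b c]
  ring

omit [DecidableEq ι] in
theorem rot_symm2 {T : ι → Matrix ι ι ℝ} (h2 : ∀ e i j, T e i j = T e j i) (U : Matrix ι ι ℝ)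
    (e i j : ι) : rot U T e i j = rot U T e j i := by
  rw [rot_entry, rot_entry]
  refine Finset.sum_congr rfl fun a _ => ?_
  rw [Finset.sum_comm]
  refine Finset.sum_congr rfl fun c _ => Finset.sum_congr rfl fun b _ => ?_
  rw [h2 a b c]
  ring

/-- Frame invariance of the pairing of 3-tensors. -/
theorem sum_ip_rot {U : Matrix ι ι ℝ} (hU : Uᵀ * U = 1) (D E : ι → Matrix ι ι ℝ) :
    ∑ e, ip (rot U D e) (rot U E e) = ∑ e, ip (D e) (E e) := by
  have hU' : U * Uᵀ = 1 := mul_eq_one_comm.1 hU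
  unfold rot
  simp only [ip_conj hU]
  apply sum_ip_mix
  rw [transpose_transpose, hU']

theorem sum_fr_rot {U : Matrix ι ι ℝ} (hU : Uᵀ * U = 1) (D : ι → Matrix ι ι ℝ) :
    ∑ e, fr (rot U D e) = ∑ e, fr (D e) := by
  have h := sum_ip_rot hU D D
  simpa only [ip_self] using h

theorem rot_DK {U : Matrix ι ι ℝ} (hU : Uᵀ * U = 1) (F F' : ℝ → ℝ) (m : ι → ℝ)
    (T : ι → Matrix ι ι ℝ) (e i j : ι) :
    rot U (fun f => DK F F' U m (T f)) e i j = dd F F' (m i) (m j) * rot U T e i j := by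
  rw [rot_apply, rot_apply, Finset.mul_sum]
  refine Finset.sum_congr rfl fun a _ => ?_
  rw [DK_frame hU]
  ring

/-- Mixing of the slices by a function of `S`. -/
theorem sum_fr_mix_mf {S U : Matrix ι ι ℝ} {m : ι → ℝ} (h : Dec S U m) (k : ℝ → ℝ)
    (D : ι → Matrix ι ι ℝ) :
    ∑ e, fr (mix (mf k S) D e) = ∑ e, k (m e) ^ 2 * fr (rot U D e) := by
  rw [h.mf_eq k, Matrix.mul_assoc, mix_mul, sum_fr_mix h.orth, mix_mul]
  refine Finset.sum_congr rfl fun e _ => ?_
  rw [mix_diagonal]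
  have h1 : fr (k (m e) • mix Uᵀ D e) = k (m e) ^ 2 * fr (mix Uᵀ D e) := by
    unfold fr
    rw [Finset.mul_sum]
    refine Finset.sum_congr rfl fun i _ => ?_
    rw [Finset.mul_sum]
    refine Finset.sum_congr rfl fun j _ => ?_
    rw [Matrix.smul_apply, smul_eq_mul, mul_pow]
  rw [h1]
  unfold rot
  rw [fr_orth h.orth h.orth]

/-- **MC1**, general functions: `∑_e |∑_f k(S)_{ef} D_f F(S)|²` in the eigenframe. -/
theorem mc1_gen {S U : Matrix ι ι ℝ} {m : ι → ℝ} (h : Dec S U m) (k F F' : ℝ → ℝ)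
    (T : ι → Matrix ι ι ℝ) :
    ∑ e, fr (mix (mf k S) (fun f => DK F F' U m (T f)) e) =
      ∑ e, ∑ i, ∑ j, k (m e) ^ 2 * dd F F' (m i) (m j) ^ 2 * rot U T e i j ^ 2 := by
  rw [sum_fr_mix_mf h]
  refine Finset.sum_congr rfl fun e _ => ?_
  unfold fr
  rw [Finset.mul_sum]
  refine Finset.sum_congr rfl fun i _ => ?_
  rw [Finset.mul_sum]
  refine Finset.sum_congr rfl fun j _ => ?_
  rw [rot_DK h.orth]
  ring

/-- `∑_e ⟨T_e, D_e F(S)⟩` in the eigenframe. -/
theorem sum_ip_DK {S U : Matrix ι ι ℝ} {m : ι → ℝ} (h : Dec S U m) (F F' : ℝ → ℝ)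
    (T : ι → Matrix ι ι ℝ) :
    ∑ e, ip (T e) (DK F F' U m (T e)) =
      ∑ e, ∑ i, ∑ j, dd F F' (m i) (m j) * rot U T e i j ^ 2 := by
  rw [← sum_ip_rot h.orth T fun f => DK F F' U m (T f)]
  refine Finset.sum_congr rfl fun e _ => ?_
  unfold ip
  refine Finset.sum_congr rfl fun i _ => Finset.sum_congr rfl fun j _ => ?_
  rw [rot_DK h.orth]
  ring

theorem sum_fr_DK {S U : Matrix ι ι ℝ} {m : ι → ℝ} (h : Dec S U m) (F F' : ℝ → ℝ)
    (T : ι → Matrix ι ι ℝ) :
    ∑ e, fr (DK F F' U m (T e)) =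
      ∑ e, ∑ i, ∑ j, dd F F' (m i) (m j) ^ 2 * rot U T e i j ^ 2 := by
  rw [← sum_fr_rot h.orth fun f => DK F F' U m (T f)]
  refine Finset.sum_congr rfl fun e _ => ?_
  unfold fr
  refine Finset.sum_congr rfl fun i _ => Finset.sum_congr rfl fun j _ => ?_
  rw [rot_DK h.orth]
  ring

/-! ### the functions `P_s` -/

/-- The derivative of `P_s`. -/
def Ps' (s x : ℝ) : ℝ := 2 * s ^ 2 * x / (s ^ 2 + x ^ 2) ^ 2

omit [Fintype ι] [DecidableEq ι] in
theorem hasDerivAt_Ps {s : ℝ} (hs : s ≠ 0) (x : ℝ) : HasDerivAt (Ps s) (Ps' s x) x := by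
  have hne : s ^ 2 + x ^ 2 ≠ 0 := by positivity
  have h1 : HasDerivAt (fun x : ℝ => x ^ 2) (2 * x) x := by simpa using hasDerivAt_pow 2 x
  have h2 : HasDerivAt (fun x : ℝ => s ^ 2 + x ^ 2) (2 * x) x := h1.const_add (s ^ 2)
  have h3 := h1.div h2 hne
  unfold Ps
  refine h3.congr_deriv ?_
  unfold Ps'
  field_simp
  ring

omit [Fintype ι] [DecidableEq ι] in
theorem continuous_Ps' {s : ℝ} (hs : s ≠ 0) : Continuous (Ps' s) := by
  unfold Ps'
  apply Continuous.div (by fun_prop) (by fun_prop)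
  intro x
  positivity

omit [Fintype ι] [DecidableEq ι] in
theorem dd_Ps {s : ℝ} (hs : s ≠ 0) (x y : ℝ) : dd (Ps s) (Ps' s) x y = Pd s x y := by
  unfold dd
  split_ifs with h
  · subst h
    unfold Ps' Pd
    have hne : s ^ 2 + x ^ 2 ≠ 0 := by positivity
    field_simp
    ring
  · rw [Pd_eq hs h]

omit [Fintype ι] [DecidableEq ι] in
theorem dd_arctan {β : ℝ} (x y : ℝ) :
    dd (fun x => β * Real.arctan (x / β)) (fun x => β ^ 2 / (β ^ 2 + x ^ 2)) x y = Fd β x y := by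
  unfold dd Fd
  rfl

/-- The quantity `|D P_s(S) (1 - P_s(S))|²` in the frame `(U, m)`. -/
def wA (s : ℝ) (S U : Matrix ι ι ℝ) (m : ι → ℝ) (T : ι → Matrix ι ι ℝ) : ℝ :=
  ∑ e, fr (mix (mf (fun x => 1 - Ps s x) S) (fun f => DK (Ps s) (Ps' s) U m (T f)) e)

/-- **MC1**. -/
theorem mc1 {S U : Matrix ι ι ℝ} {m : ι → ℝ} (h : Dec S U m) {s : ℝ} (hs : s ≠ 0)
    (T : ι → Matrix ι ι ℝ) :
    wA s S U m T =
      ∑ e, ∑ i, ∑ j, (1 - Ps s (m e)) ^ 2 * Pd s (m i) (m j) ^ 2 * rot U T e i j ^ 2 := by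
  unfold wA
  rw [mc1_gen h]
  refine Finset.sum_congr rfl fun e _ => Finset.sum_congr rfl fun i _ =>
    Finset.sum_congr rfl fun j _ => ?_
  rw [dd_Ps hs]

omit [Fintype ι] [DecidableEq ι] in
/-- the integrand of `om` is interval integrable -/
theorem intervalIntegrable_om {b : ℝ} (hb : 0 < b) (z x y : ℝ) :
    IntervalIntegrable (fun s => (1 - Ps s z) ^ 2 * Pd s x y ^ 2 * (4 * s)) volume 0 b := by
  have hg : IntervalIntegrable
      (fun s => 2 * (x + y) ^ 2 * (jj (z ^ 2) (x ^ 2) (y ^ 2) (s ^ 2) * (2 * s))) volume 0 b := by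
    by_cases hxy : x + y = 0
    · rw [hxy]
      simp
    · have h0 : 0 < z ^ 2 + x ^ 2 + y ^ 2 := by
        by_contra hcon
        apply hxy
        have h1 : x = 0 := by nlinarith [sq_nonneg x, sq_nonneg y, sq_nonneg z]
        have h2 : y = 0 := by nlinarith [sq_nonneg x, sq_nonneg y, sq_nonneg z]
        rw [h1, h2]; ring
      obtain ⟨K, hK⟩ := exists_bound (sq_nonneg z) (sq_nonneg x) (sq_nonneg y) h0
      rw [intervalIntegrable_iff_integrableOn_Ioc_of_le hb.le]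
      refine Measure.integrableOn_of_bounded (M := 2 * (x + y) ^ 2 * (K * (2 * b))) ?_ ?_ ?_
      · simp [Real.volume_Ioc]
      · exact (measurable_const.mul (((measurable_jj _ _ _).comp
          (by fun_prop : Measurable fun s : ℝ => s ^ 2)).mul (by fun_prop))).aestronglyMeasurable
      · refine (ae_restrict_iff' measurableSet_Ioc).2 (Filter.Eventually.of_forall fun s hs => ?_)
        have h1 : 0 ≤ jj (z ^ 2) (x ^ 2) (y ^ 2) (s ^ 2) := jj_nonneg (sq_nonneg s)
        have h2 := hK _ (sq_nonneg s)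
        have h3 : 0 ≤ 2 * s := by linarith [hs.1]
        rw [Real.norm_of_nonneg (by positivity)]
        refine mul_le_mul_of_nonneg_left ?_ (by positivity)
        exact mul_le_mul h2 (by linarith [hs.2]) h3 (h1.trans h2)
  rw [intervalIntegrable_iff_integrableOn_Ioc_of_le hb.le] at hg ⊢
  refine (integrableOn_congr_fun ?_ measurableSet_Ioc).1 hg
  intro s hs
  exact (integrand_eq hs.1 z x y).symm

/-- **MC2**: the integral over the scales in the frame. -/
theorem mc2_eq {S U : Matrix ι ι ℝ} {m : ι → ℝ} (h : Dec S U m) {b : ℝ} (hb : 0 < b)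
    (T : ι → Matrix ι ι ℝ) :
    ∫ s in (0 : ℝ)..b, wA s S U m T * (4 * s) =
      ∑ e, ∑ i, ∑ j, om b (m e) (m i) (m j) * rot U T e i j ^ 2 := by
  have e1 : ∫ s in (0 : ℝ)..b, wA s S U m T * (4 * s) =
      ∫ s in (0 : ℝ)..b, ∑ e, ∑ i, ∑ j,
        (1 - Ps s (m e)) ^ 2 * Pd s (m i) (m j) ^ 2 * (4 * s) * rot U T e i j ^ 2 := by
    refine intervalIntegral.integral_congr_ae (Filter.Eventually.of_forall fun s hs => ?_)
    rw [Set.uIoc_of_le hb.le] at hs
    rw [mc1 h hs.1.ne', Finset.sum_mul]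
    refine Finset.sum_congr rfl fun e _ => ?_
    rw [Finset.sum_mul]
    refine Finset.sum_congr rfl fun i _ => ?_
    rw [Finset.sum_mul]
    refine Finset.sum_congr rfl fun j _ => ?_
    ring
  have hi : ∀ e i j : ι, IntervalIntegrable (fun s =>
      (1 - Ps s (m e)) ^ 2 * Pd s (m i) (m j) ^ 2 * (4 * s) * rot U T e i j ^ 2) volume 0 b :=
    fun e i j => (intervalIntegrable_om hb (m e) (m i) (m j)).mul_const _
  have hi2 : ∀ e i : ι, IntervalIntegrable (fun s => ∑ j,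
      (1 - Ps s (m e)) ^ 2 * Pd s (m i) (m j) ^ 2 * (4 * s) * rot U T e i j ^ 2) volume 0 b := by
    intro e i
    have := IntervalIntegrable.sum Finset.univ fun j _ => hi e i j
    simpa only [Finset.sum_fn] using this
  have hi3 : ∀ e : ι, IntervalIntegrable (fun s => ∑ i, ∑ j,
      (1 - Ps s (m e)) ^ 2 * Pd s (m i) (m j) ^ 2 * (4 * s) * rot U T e i j ^ 2) volume 0 b := by
    intro e
    have := IntervalIntegrable.sum Finset.univ fun i _ => hi2 e i
    simpa only [Finset.sum_fn] using this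
  rw [e1, intervalIntegral.integral_finsetSum fun e _ => hi3 e]
  refine Finset.sum_congr rfl fun e _ => ?_
  rw [intervalIntegral.integral_finsetSum fun i _ => hi2 e i]
  refine Finset.sum_congr rfl fun i _ => ?_
  rw [intervalIntegral.integral_finsetSum fun j _ => hi e i j]
  refine Finset.sum_congr rfl fun j _ => ?_
  rw [intervalIntegral.integral_mul_const]
  rfl

/-- **MC2** with the weights of `F = β arctan (·/β)`. -/
theorem mc2 {S U : Matrix ι ι ℝ} {m : ι → ℝ} (h : Dec S U m) {b β : ℝ} (hb : 0 < b)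
    (hbβ : b ≤ β) {T : ι → Matrix ι ι ℝ} (h1 : ∀ e i j, T e i j = T i e j)
    (h2 : ∀ e i j, T e i j = T e j i) :
    ∫ s in (0 : ℝ)..b, wA s S U m T * (4 * s) ≤
      26 / 15 * ∑ e, ip (T e) (DK (fun x => β * Real.arctan (x / β))
        (fun x => β ^ 2 / (β ^ 2 + x ^ 2)) U m (T e)) := by
  rw [mc2_eq h hb, sum_ip_DK h]
  simp only [dd_arctan]
  exact comb_arctan (fun e i j => rot U T e i j) (rot_symm1 h1 U) (rot_symm2 h2 U) m hb hbβ

/-- **MC2** without weights. -/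
theorem mc2_one {S U : Matrix ι ι ℝ} {m : ι → ℝ} (h : Dec S U m) {b : ℝ} (hb : 0 < b)
    {T : ι → Matrix ι ι ℝ} (h1 : ∀ e i j, T e i j = T i e j)
    (h2 : ∀ e i j, T e i j = T e j i) :
    ∫ s in (0 : ℝ)..b, wA s S U m T * (4 * s) ≤ 26 / 15 * ∑ e, fr (T e) := by
  rw [mc2_eq h hb, ← sum_fr_rot h.orth T]
  have := comb (fun e i j => rot U T e i j) (rot_symm1 h1 U) (rot_symm2 h2 U) m hb
    (fun _ _ => 1) (fun i j => by
      have h0 : 0 ≤ max (m i ^ 2) (m j ^ 2) := le_max_of_le_left (sq_nonneg _)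
      apply div_le_one_of_le₀
      · linarith
      · positivity)
  simpa only [one_mul, fr] using this

end Vale.Agent.P245.H792
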